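import Mathlib

/-! Basic notions for row 118: finite averages, signs on `ZMod 2`, the Walsh functional. -/

namespace Crest.Agent.R118

open Finset

/-- The group `F_2^n`. -/
abbrev G (n : ℕ) := Fin n → ZMod 2

/-- The sign `(-1)^z`. -/
def sg (z : ZMod 2) : ℝ := if z = 0 then 1 else -1

/-- Uniform average over a finite type. -/
noncomputable def avg {α M : Type*} [Fintype α] [AddCommGroup M] [Module ℝ M] (f : α → M) : M :=
  (Fintype.card α : ℝ)⁻¹ • ∑ a, f a

/-- Symmetric set. -/
def Symm {X : Type*} [AddCommGroup X] (S : Set X) : Prop := ∀ x ∈ S, -x ∈ S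

/-- The Walsh functional of dimension `n` of the bilinear form `B` on `S × T` is at most `c`. -/
def Wal {X Y : Type*} [AddCommGroup X] [Module ℝ X] [AddCommGroup Y] [Module ℝ Y]
    (B : X →ₗ[ℝ] Y →ₗ[ℝ] ℝ) (S : Set X) (T : Set Y) (n : ℕ) (c : ℝ) : Prop :=
  ∀ (s : G n → X) (t : G n → Y), (∀ x, s x ∈ S) → (∀ y, t y ∈ T) →
    |avg fun x => avg fun y => sg (x ⬝ᵥ y) * B (s x) (t y)| ≤ c

theorem z2_cases (z : ZMod 2) : z = 0 ∨ z = 1 := by
  revert z; decide

theorem z2_add_self (z : ZMod 2) : z + z = 0 := by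
  revert z; decide

theorem G_add_self {n : ℕ} (x : G n) : x + x = 0 := by
  funext i; exact z2_add_self _

@[simp] theorem sg_zero : sg 0 = 1 := by simp [sg]

@[simp] theorem sg_one : sg 1 = -1 := by
  have : (1 : ZMod 2) ≠ 0 := by decide
  simp [sg, this]

theorem sg_add (a b : ZMod 2) : sg (a + b) = sg a * sg b := by
  rcases z2_cases a with rfl | rfl <;> rcases z2_cases b with rfl | rfl <;> simp [z2_add_self]

@[simp] theorem sg_mul_self (a : ZMod 2) : sg a * sg a = 1 := by
  rw [← sg_add, z2_add_self, sg_zero]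

theorem sg_cases (a : ZMod 2) : sg a = 1 ∨ sg a = -1 := by
  rcases z2_cases a with rfl | rfl <;> simp

@[simp] theorem abs_sg (a : ZMod 2) : |sg a| = 1 := by
  rcases sg_cases a with h | h <;> simp [h]

theorem sg_sum {ι : Type*} (s : Finset ι) (f : ι → ZMod 2) :
    sg (∑ i ∈ s, f i) = ∏ i ∈ s, sg (f i) := by
  classical
  induction s using Finset.induction_on with
  | empty => simp
  | insert a s ha ih => rw [Finset.sum_insert ha, Finset.prod_insert ha, sg_add, ih]

theorem Symm.sg_smul {X : Type*} [AddCommGroup X] [Module ℝ X] {S : Set X} (hS : Symm S)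
    {c : ℝ} (hc : c = 1 ∨ c = -1) {x : X} (hx : x ∈ S) : c • x ∈ S := by
  rcases hc with rfl | rfl
  · simpa using hx
  · simpa using hS x hx

section avg

variable {α β M N : Type*} [Fintype α] [Fintype β] [AddCommGroup M] [Module ℝ M]
  [AddCommGroup N] [Module ℝ N]

theorem avg_congr {f g : α → M} (h : ∀ a, f a = g a) : avg f = avg g := by
  rw [show f = g from funext h]

theorem avg_add (f g : α → M) : avg (fun a => f a + g a) = avg f + avg g := by
  simp [avg, Finset.sum_add_distrib]

theorem avg_sub (f g : α → M) : avg (fun a => f a - g a) = avg f - avg g := by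
  simp [avg, Finset.sum_sub_distrib, smul_sub]

theorem avg_neg (f : α → M) : avg (fun a => -f a) = -avg f := by
  simp [avg]

theorem avg_smul (c : ℝ) (f : α → M) : avg (fun a => c • f a) = c • avg f := by
  simp only [avg, ← Finset.smul_sum]
  rw [smul_comm]

theorem avg_smul_const (f : α → ℝ) (x : M) : avg (fun a => f a • x) = avg f • x := by
  simp only [avg, ← Finset.sum_smul, smul_eq_mul, mul_smul]

theorem avg_mul_left (c : ℝ) (f : α → ℝ) : avg (fun a => c * f a) = c * avg f :=
  avg_smul c f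

theorem avg_mul_right (c : ℝ) (f : α → ℝ) : avg (fun a => f a * c) = avg f * c := by
  simp only [mul_comm _ c, avg_mul_left]

theorem avg_const [Nonempty α] (x : M) : avg (fun _ : α => x) = x := by
  have : (Fintype.card α : ℝ) ≠ 0 := by exact_mod_cast Fintype.card_ne_zero
  simp only [avg, Finset.sum_const, Finset.card_univ, ← Nat.cast_smul_eq_nsmul ℝ, smul_smul]
  rw [inv_mul_cancel₀ this, one_smul]

theorem avg_sum {ι : Type*} (s : Finset ι) (f : ι → α → M) :
    avg (fun a => ∑ i ∈ s, f i a) = ∑ i ∈ s, avg (f i) := by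
  simp only [avg, ← Finset.smul_sum]
  rw [Finset.sum_comm]

theorem avg_comm (f : α → β → M) :
    avg (fun a => avg fun b => f a b) = avg fun b => avg fun a => f a b := by
  simp only [avg, ← Finset.smul_sum]
  rw [Finset.sum_comm, smul_comm]

theorem avg_prod (f : α × β → M) : avg f = avg fun a => avg fun b => f (a, b) := by
  simp only [avg, ← Finset.smul_sum, Fintype.card_prod, Nat.cast_mul, mul_inv, mul_smul,
    Fintype.sum_prod_type]

theorem avg_bij {e : α → β} (he : Function.Bijective e) (f : β → M) :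
    avg (fun a => f (e a)) = avg f := by
  simp only [avg]
  rw [Fintype.card_of_bijective he, he.sum_comp]

theorem avg_equiv (e : α ≃ β) (f : β → M) : avg (fun a => f (e a)) = avg f :=
  avg_bij e.bijective f

theorem avg_inj {e : α → α} (he : Function.Injective e) (f : α → M) :
    avg (fun a => f (e a)) = avg f :=
  avg_bij (Finite.injective_iff_bijective.1 he) f

theorem avg_add_right [AddCommGroup α] (f : α → M) (b : α) :
    avg (fun a => f (a + b)) = avg f :=
  avg_equiv (Equiv.addRight b) f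

theorem avg_add_left [AddCommGroup α] (f : α → M) (b : α) :
    avg (fun a => f (b + a)) = avg f :=
  avg_equiv (Equiv.addLeft b) f

theorem map_avg (L : M →ₗ[ℝ] N) (f : α → M) : L (avg f) = avg fun a => L (f a) := by
  simp [avg]

theorem avg_mono {f g : α → ℝ} (h : ∀ a, f a ≤ g a) : avg f ≤ avg g := by
  simp only [avg, smul_eq_mul]
  exact mul_le_mul_of_nonneg_left (Finset.sum_le_sum fun a _ => h a) (by positivity)

theorem avg_nonneg {f : α → ℝ} (h : ∀ a, 0 ≤ f a) : 0 ≤ avg f := by
  simp only [avg, smul_eq_mul]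
  exact mul_nonneg (by positivity) (Finset.sum_nonneg fun a _ => h a)

theorem avg_le_of_le [Nonempty α] {f : α → ℝ} {c : ℝ} (h : ∀ a, f a ≤ c) : avg f ≤ c := by
  calc avg f ≤ avg (fun _ : α => c) := avg_mono h
    _ = c := avg_const c

theorem norm_avg_le {E : Type*} [SeminormedAddCommGroup E] [NormedSpace ℝ E] (f : α → E) :
    ‖avg f‖ ≤ avg fun a => ‖f a‖ := by
  simp only [avg, smul_eq_mul, norm_smul, norm_inv, Real.norm_natCast]
  exact mul_le_mul_of_nonneg_left (norm_sum_le _ _) (by positivity)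

theorem abs_avg_le (f : α → ℝ) : |avg f| ≤ avg fun a => |f a| :=
  norm_avg_le f

theorem abs_avg_le_of_le [Nonempty α] {f : α → ℝ} {c : ℝ} (h : ∀ a, |f a| ≤ c) : |avg f| ≤ c :=
  (abs_avg_le f).trans (avg_le_of_le h)

theorem sq_avg_le (f : α → ℝ) : (avg f) ^ 2 ≤ avg fun a => f a ^ 2 := by
  rcases isEmpty_or_nonempty α with h | h
  · simp [avg]
  have hc : (0 : ℝ) < Fintype.card α := by exact_mod_cast Fintype.card_pos
  have := sq_sum_le_card_mul_sum_sq (s := (Finset.univ : Finset α)) (f := f)
  simp only [avg, smul_eq_mul, Finset.card_univ] at *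
  rw [mul_pow]
  calc ((Fintype.card α : ℝ)⁻¹) ^ 2 * (∑ a, f a) ^ 2
      ≤ ((Fintype.card α : ℝ)⁻¹) ^ 2 * ((Fintype.card α : ℝ) * ∑ a, f a ^ 2) := by gcongr
    _ = _ := by field_simp

theorem avg_eval {ι : Type*} [Fintype ι] [DecidableEq ι] [Nonempty α] (l : ι) (g : α → M) :
    avg (fun x : ι → α => g (x l)) = avg g := by
  classical
  rw [← avg_equiv (Equiv.funSplitAt l α).symm, avg_prod]
  simp [avg_const]

theorem avg_ite [DecidableEq α] (b : α) (x : M) :
    avg (fun a => if a = b then x else 0) = (Fintype.card α : ℝ)⁻¹ • x := by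
  simp [avg]

end avg

theorem card_G (n : ℕ) : (Fintype.card (G n) : ℝ) = 2 ^ n := by
  simp [G, ZMod.card]

/-- Orthogonality of characters. -/
theorem avg_sg_dot {n : ℕ} (z : G n) :
    avg (fun a : G n => sg (a ⬝ᵥ z)) = if z = 0 then 1 else 0 := by
  split_ifs with h
  · simp [h, avg_const]
  · obtain ⟨i, hi⟩ := Function.ne_iff.1 h
    have hi1 : z i = 1 := (z2_cases _).resolve_left hi
    have h1 := avg_add_right (fun a : G n => sg (a ⬝ᵥ z)) (Pi.single i 1)
    simp only [add_dotProduct, single_dotProduct, hi1, mul_one, sg_add, sg_one, mul_neg,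
      avg_neg] at h1
    linarith

theorem G_add_eq_zero {n : ℕ} (x y : G n) : x + y = 0 ↔ x = y := by
  constructor
  · intro h
    have : x + y + y = y := by rw [h, zero_add]
    rwa [add_assoc, G_add_self, add_zero] at this
  · rintro rfl; exact G_add_self x

/-- Parseval's identity on `F_2^n`. -/
theorem parseval {n : ℕ} (f g : G n → ℝ) :
    ∑ a : G n, (avg fun x => sg (a ⬝ᵥ x) * f x) * (avg fun x => sg (a ⬝ᵥ x) * g x) =
      avg fun x => f x * g x := by
  have hc : (2 : ℝ) ^ n ≠ 0 := by positivity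
  have h1 : ∀ a : G n, (avg fun x => sg (a ⬝ᵥ x) * f x) * (avg fun x => sg (a ⬝ᵥ x) * g x) =
      avg fun x => avg fun y => sg (a ⬝ᵥ (x + y)) * (f x * g y) := by
    intro a
    rw [← avg_mul_right]
    refine avg_congr fun x => ?_
    rw [← avg_mul_left]
    refine avg_congr fun y => ?_
    rw [dotProduct_add, sg_add]; ring
  simp only [h1]
  rw [← avg_sum]
  refine avg_congr fun x => ?_
  rw [← avg_sum]
  have h2 : ∀ y : G n, ∑ a : G n, sg (a ⬝ᵥ (x + y)) * (f x * g y) =
      if y = x then 2 ^ n * (f x * g x) else 0 := by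
    intro y
    have h3 := avg_sg_dot (x + y)
    rw [avg, card_G, smul_eq_mul, inv_mul_eq_iff_eq_mul₀ hc] at h3
    rw [← Finset.sum_mul, h3]
    by_cases h : y = x
    · simp [h, G_add_self]
    · simp [h, Ne.symm h, G_add_eq_zero]
  simp only [h2]
  rw [avg_ite, card_G, smul_eq_mul]
  field_simp

end Crest.Agent.R118
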