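import Crest.Agent.R118.Shift
import Crest.Prelude.Def_Rademacher

/-! Iteration of the key inequality and use of the approximation property. -/

namespace Crest.Agent.R118

open Finset Crest.AnalysisR

variable {X : Type*} [NormedAddCommGroup X] [NormedSpace ℝ X]

/-- Finite symmetric subsets of the unit ball. -/
def Good (S : Set X) : Prop := S.Finite ∧ Symm S ∧ ∀ x ∈ S, ‖x‖ ≤ 1

/-- The dual unit ball. -/
abbrev DB (X : Type*) [NormedAddCommGroup X] [NormedSpace ℝ X] : Set (StrongDual ℝ X) :=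
  {y | ‖y‖ ≤ 1}

/-- One step of the recursion for the Walsh functional. -/
def Step (Φ : Set X → Set X) (k : ℕ) (β : ℝ) : Prop :=
  (∀ S, Good S → Good (Φ S) ∧ S ⊆ Φ S) ∧
  ∀ (u : X →L[ℝ] X) (S : Set X), Good S → ∀ (n : ℕ) (c1 c2 : ℝ), 2 * k ^ 2 ≤ n →
    Wal (form u) (Φ S) (DB X) n c1 → Wal (form u) (Φ S) (DB X) (n + k + k + (n + k + k)) c2 →
    Wal (form u) S (DB X) (n + k + k) (c1 / 2 + β * c2)

theorem Step.iterate_good {Φ : Set X → Set X} {k : ℕ} {β : ℝ} (h : Step Φ k β) (J : ℕ) :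
    ∀ S, Good S → Good (Φ^[J] S) ∧ S ⊆ Φ^[J] S := by
  induction J with
  | zero => exact fun S hS => ⟨hS, subset_rfl⟩
  | succ J ih =>
    intro S hS
    rw [Function.iterate_succ_apply]
    exact ⟨(ih _ (h.1 S hS).1).1, (h.1 S hS).2.trans (ih _ (h.1 S hS).1).2⟩

theorem Step.iterate {Φ : Set X → Set X} {k : ℕ} {β : ℝ} (h : Step Φ k β) (hβ : 0 ≤ β)
    (u : X →L[ℝ] X) {n : ℕ} (hn : 2 * k ^ 2 ≤ n) {N c : ℝ} (hc : 0 ≤ c) (J : ℕ) :
    ∀ S, Good S → Wal (form u) (Φ^[J] S) (DB X) n N → Wal (form u) (Φ^[J] S) (DB X) (n + n) c →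
      Wal (form u) S (DB X) (n + 2 * k * J) (N / 2 ^ J + 2 * β * c) := by
  induction J with
  | zero =>
    intro S _ h1 _
    refine Wal.mono_const h1 ?_
    have := mul_nonneg hβ hc
    simp only [pow_zero, div_one]; linarith
  | succ J ih =>
    intro S hS h1 h2
    rw [Function.iterate_succ_apply] at h1 h2
    have h3 := ih _ (h.1 S hS).1 h1 h2
    have h4 := h.iterate_good J _ (h.1 S hS).1
    have h5 := h.2 u S hS (n + 2 * k * J) _ c (by omega) h3
      ((Wal.mono_dim h4.1.2.1 symm_ball h2 (by omega)).mono_set h4.2)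
    have h6 : n + 2 * k * (J + 1) = n + 2 * k * J + k + k := by ring
    rw [h6]
    refine h5.mono_const (le_of_eq ?_)
    rw [pow_succ]; field_simp; ring

theorem wal_id [CompleteSpace X] (hAP : HasApproximationProperty X) {Φ : Set X → Set X} {k : ℕ}
    {β : ℝ} (h : Step Φ k β) (hβ : 0 ≤ β) (hk : 1 ≤ k) :
    ∃ n, ∀ S : Set X, Good S → Wal (form (ContinuousLinearMap.id ℝ X)) S (DB X) n (1 / 64) := by
  obtain ⟨L, hL⟩ : ∃ L : ℕ, 8 * β + 1024 ≤ 2 ^ L :=
    (pow_unbounded_of_one_lt _ one_lt_two).imp fun _ h => h.le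
  set A := 4 * k * L + 2 * k ^ 2 with hA
  let m : ℕ → ℕ := fun i => A * (i + 2) + 2 * k * (L * (i + 1))
  refine ⟨m 0, fun S0 hS0 => ?_⟩
  let SS : ℕ → Set X := fun i => Nat.rec S0 (fun i S => Φ^[L * (i + 1)] S) i
  have hSS : ∀ i, SS (i + 1) = Φ^[L * (i + 1)] (SS i) := fun i => rfl
  have hG : ∀ i, Good (SS i) := by
    intro i
    induction i with
    | zero => exact hS0
    | succ i ih => exact (h.iterate_good _ _ ih).1
  let K : Set X := ⋃ i : ℕ, (fun x => ((1 / 2 : ℝ) ^ i) • x) '' SS i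
  have hK : TotallyBounded K := by
    rw [Metric.totallyBounded_iff]
    intro ε hε
    obtain ⟨I, hI⟩ := exists_pow_lt_of_lt_one hε (by norm_num : (1 / 2 : ℝ) < 1)
    refine ⟨insert 0 (⋃ i ∈ Set.Iio I, (fun x => ((1 / 2 : ℝ) ^ i) • x) '' SS i),
      ((Set.finite_Iio I).biUnion fun i _ => (hG i).1.image _).insert _, ?_⟩
    intro y hy
    obtain ⟨i, x, hx, rfl⟩ := Set.mem_iUnion.1 hy
    rcases lt_or_ge i I with hi | hi
    · refine Set.mem_biUnion (x := ((1 / 2 : ℝ) ^ i) • x) (Set.mem_insert_of_mem _ ?_)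
        (Metric.mem_ball_self hε)
      exact Set.mem_biUnion (x := i) hi ⟨x, hx, rfl⟩
    · refine Set.mem_biUnion (x := 0) (Set.mem_insert _ _) ?_
      rw [mem_ball_zero_iff, norm_smul, Real.norm_of_nonneg (by positivity)]
      have h1 : (1 / 2 : ℝ) ^ i ≤ (1 / 2) ^ I := pow_le_pow_of_le_one (by norm_num) (by norm_num) hi
      have h2 := (hG i).2.2 x hx
      have h3 : (0 : ℝ) ≤ (1 / 2) ^ i := by positivity
      nlinarith
  obtain ⟨u, hu, hu2⟩ := hAP (closure K) (hK.closure.isCompact_of_isClosed isClosed_closure)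
    (1 / 128) (by norm_num)
  have hu3 : ∀ i, ∀ x ∈ SS i, ‖u x - x‖ ≤ 2 ^ i / 128 := by
    intro i x hx
    have h1 := hu2 _ (subset_closure (Set.mem_iUnion.2 ⟨i, x, hx, rfl⟩))
    simp only [map_smul, ← smul_sub, norm_smul] at h1
    rw [Real.norm_of_nonneg (by positivity), one_div_pow, one_div_mul_eq_div,
      div_lt_iff₀ (by positivity)] at h1
    linarith
  have hu4 : ∀ i n, Wal (form u) (SS i) (DB X) n (2 ^ (i + 1)) := by
    intro i n
    refine wal_of_bound fun x hx y hy => ?_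
    have h1 := y.le_opNorm (u x)
    have h2 : ‖y‖ ≤ 1 := hy
    have h3 := hu3 i x hx
    have h4 := (hG i).2.2 x hx
    have h5 : ‖u x‖ ≤ ‖u x - x‖ + ‖x‖ := by simpa using norm_add_le (u x - x) x
    have h6 : (1 : ℝ) ≤ 2 ^ i := one_le_pow₀ one_le_two
    rw [Real.norm_eq_abs] at h1
    rw [form_apply, pow_succ]
    nlinarith [norm_nonneg (u x)]
  let a : ℕ → ℝ := fun i => 2 ^ (i + 2) / 2 ^ (L * (i + 1))
  have hmm : ∀ i, m (i + 1) ≤ A * (i + 2) + A * (i + 2) := by
    intro i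
    have h1 : 4 * (k * L) * (i + 1) ≤ A * (i + 1) :=
      Nat.mul_le_mul_right _ (by rw [hA, mul_assoc]; omega)
    have h2 : m (i + 1) = A * (i + 3) + 2 * (k * L) * (i + 2) := by simp only [m]; ring
    rw [h2]
    generalize k * L = z at *
    nlinarith [Nat.zero_le (z * i)]
  have hdown : ∀ i, Wal (form u) (SS (i + 1)) (DB X) (m (i + 1)) (2 * a (i + 1)) →
      Wal (form u) (SS i) (DB X) (m i) (2 * a i) := by
    intro i hi
    have h1 := h.iterate hβ u (n := A * (i + 2)) (by nlinarith) (N := 2 ^ (i + 2))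
      (c := 2 * a (i + 1)) (by positivity) (L * (i + 1)) (SS i) (hG i) (hu4 (i + 1) _)
      (Wal.mono_dim (hG (i + 1)).2.1 symm_ball hi (hmm i))
    refine h1.mono_const ?_
    have h2 : a (i + 1) = a i * (2 / 2 ^ L) := by
      simp only [a]; field_simp; ring
    have h3 : 0 ≤ a i := by positivity
    have h4 : β * (2 / 2 ^ L) ≤ 1 / 4 := by
      rw [mul_div_assoc', div_le_iff₀ (by positivity)]; linarith
    change a i + _ ≤ _
    rw [h2]
    nlinarith
  obtain ⟨Γ, hΓ, hΓ2⟩ := wal_finite_rank u hu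
  obtain ⟨I, hI⟩ : ∃ I : ℕ, Γ ≤ 2 ^ I :=
    (pow_unbounded_of_one_lt _ one_lt_two).imp fun _ h => h.le
  have hbase : Wal (form u) (SS I) (DB X) (m I) (2 * a I) := by
    refine ((hΓ2 (m I) (L * (I + 1)) ?_).mono_set (hG I).2.2).mono_const ?_
    · exact le_add_left (Nat.mul_le_mul_right _ (by omega))
    · simp only [a]
      rw [one_div_pow, mul_one_div, ← mul_div_assoc]
      refine div_le_div_of_nonneg_right ?_ (by positivity)
      have : (0 : ℝ) ≤ 2 ^ I := by positivity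
      rw [pow_add]; linarith
  have h0 : Wal (form u) (SS 0) (DB X) (m 0) (2 * a 0) :=
    Nat.decreasingInduction (motive := fun i _ => Wal (form u) (SS i) (DB X) (m i) (2 * a i))
      (fun i _ hi => hdown i hi) hbase (Nat.zero_le I)
  have h1 : Wal (form (ContinuousLinearMap.id ℝ X - u)) S0 (DB X) (m 0) (1 / 128) := by
    refine wal_of_bound fun x hx y hy => ?_
    have h1 := y.le_opNorm (x - u x)
    have h2 : ‖y‖ ≤ 1 := hy
    have h3 := hu3 0 x hx
    rw [Real.norm_eq_abs, norm_sub_rev] at h1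
    simp only [form_apply, sub_apply, ContinuousLinearMap.id_apply]
    nlinarith [norm_nonneg (u x - x)]
  intro s t hs ht
  have h2 := h0 s t hs ht
  have h3 := h1 s t hs ht
  have h4 : 2 * a 0 ≤ 1 / 128 := by
    simp only [a, zero_add, mul_one]
    rw [← mul_div_assoc, div_le_iff₀ (by positivity)]; linarith
  simp only [form_apply, sub_apply, ContinuousLinearMap.id_apply, map_sub,
    mul_sub, avg_sub] at h2 h3 ⊢
  rw [abs_le] at h2 h3 ⊢
  constructor <;> linarith [h2.1, h2.2, h3.1, h3.2]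

theorem l1_of_wal {n : ℕ}
    (h : ∀ S : Set X, Good S → Wal (form (ContinuousLinearMap.id ℝ X)) S (DB X) n (1 / 64))
    (s : G n → X) {c : ℝ} (hc : 0 < c) (hs : ∀ x, ‖s x‖ ≤ c) :
    avg (fun y : G n => ‖avg fun x : G n => sg (x ⬝ᵥ y) • s x‖) ≤ c / 64 := by
  choose t ht1 ht2 using fun y : G n =>
    exists_dual_vector'' ℝ (avg fun x : G n => sg (x ⬝ᵥ y) • s x)
  have hs' : ∀ x, ‖c⁻¹ • s x‖ ≤ 1 := fun x => by
    rw [norm_smul, Real.norm_of_nonneg (by positivity), inv_mul_le_iff₀ hc, mul_one]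
    exact hs x
  have h1 := h (Set.range (fun x => c⁻¹ • s x) ∪ Set.range fun x => -(c⁻¹ • s x))
    ⟨(Set.finite_range _).union (Set.finite_range _), ?_, ?_⟩ (fun x => c⁻¹ • s x) t
    (fun x => Or.inl ⟨x, rfl⟩) ht1
  · rw [avg_comm] at h1
    have h2 : ∀ y, (avg fun x => sg (x ⬝ᵥ y) * form (ContinuousLinearMap.id ℝ X) (c⁻¹ • s x) (t y))
        = c⁻¹ * ‖avg fun x : G n => sg (x ⬝ᵥ y) • s x‖ := by
      intro y
      have h3 := ht2 y
      have h4 := map_avg (t y : X →ₗ[ℝ] ℝ) fun x : G n => sg (x ⬝ᵥ y) • s x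
      simp only [ContinuousLinearMap.coe_coe, map_smul, smul_eq_mul] at h4
      rw [h4, RCLike.ofReal_real_eq_id, id] at h3
      rw [← h3, ← avg_mul_left]
      refine avg_congr fun x => ?_
      simp only [form_apply, ContinuousLinearMap.id_apply, map_smul, smul_eq_mul,
        LinearMap.smul_apply]
      ring
    simp only [h2, avg_mul_left] at h1
    have h5 := (le_abs_self _).trans h1
    rw [inv_mul_le_iff₀ hc] at h5
    linarith
  · rintro _ (⟨x, rfl⟩ | ⟨x, rfl⟩)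
    · exact Or.inr ⟨x, rfl⟩
    · exact Or.inl ⟨x, by simp⟩
  · rintro _ (⟨x, rfl⟩ | ⟨x, rfl⟩)
    · exact hs' x
    · rw [norm_neg]; exact hs' x

theorem l2_of_wal {n : ℕ}
    (h : ∀ S : Set X, Good S → Wal (form (ContinuousLinearMap.id ℝ X)) S (DB X) n (1 / 64))
    (s : G n → X) :
    avg (fun y : G n => ‖avg fun x : G n => sg (x ⬝ᵥ y) • s x‖ ^ 2) ≤
      (1 / 4) * avg fun x => ‖s x‖ ^ 2 := by
  classical
  have hW : ∀ (r : G n → X) (y : G n),
      ‖avg fun x : G n => sg (x ⬝ᵥ y) • r x‖ ≤ avg fun x => ‖r x‖ := by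
    intro r y
    refine (norm_avg_le _).trans (le_of_eq (avg_congr fun x => ?_))
    rw [norm_smul, Real.norm_eq_abs, abs_sg, one_mul]
  have h0 : 0 ≤ avg fun x => ‖s x‖ ^ 2 := avg_nonneg fun x => by positivity
  set σ := √(avg fun x => ‖s x‖ ^ 2) with hσ
  have hσ2 : σ ^ 2 = avg fun x => ‖s x‖ ^ 2 := Real.sq_sqrt h0
  have h1 : (avg fun x => ‖s x‖) ≤ σ := Real.le_sqrt_of_sq_le (sq_avg_le _)
  rw [← hσ2]
  have hσ1 : 0 ≤ σ := Real.sqrt_nonneg _
  rcases hσ1.eq_or_lt with hσ0 | hσ0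
  · refine avg_le_of_le fun y => ?_
    have h2 := (hW s y).trans h1
    have h3 := norm_nonneg (avg fun x : G n => sg (x ⬝ᵥ y) • s x)
    rw [← hσ0] at h2 ⊢
    nlinarith
  let s1 : G n → X := fun x => if ‖s x‖ ≤ 4 * σ then s x else 0
  let s2 : G n → X := fun x => if ‖s x‖ ≤ 4 * σ then 0 else s x
  have e1 := l1_of_wal h s1 (c := 4 * σ) (by positivity) fun x => by
    simp only [s1]; split_ifs with hx
    · exact hx
    · rw [norm_zero]; positivity
  have e2 : (avg fun x => ‖s1 x‖) ≤ σ := by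
    refine (avg_mono fun x => ?_).trans h1
    simp only [s1]; split_ifs <;> simp
  have e3 : (avg fun x => ‖s2 x‖) ≤ σ / 4 := by
    calc (avg fun x => ‖s2 x‖) ≤ avg fun x => (4 * σ)⁻¹ * ‖s x‖ ^ 2 := by
          refine avg_mono fun x => ?_
          simp only [s2]; split_ifs with hx
          · rw [norm_zero]; positivity
          · rw [le_inv_mul_iff₀ (by positivity)]
            nlinarith [norm_nonneg (s x)]
      _ = σ / 4 := by rw [avg_mul_left, ← hσ2]; field_simp
  calc _ ≤ avg fun y : G n => 2 * σ * ‖avg fun x : G n => sg (x ⬝ᵥ y) • s1 x‖ + σ ^ 2 / 8 := by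
        refine avg_mono fun y => ?_
        have h2 : (avg fun x : G n => sg (x ⬝ᵥ y) • s x) =
            (avg fun x : G n => sg (x ⬝ᵥ y) • s1 x) + avg fun x : G n => sg (x ⬝ᵥ y) • s2 x := by
          rw [← avg_add]
          refine avg_congr fun x => ?_
          simp only [s1, s2]; split_ifs <;> simp
        have h3 := (hW s1 y).trans e2
        have h4 := (hW s2 y).trans e3
        have h5 := norm_add_le (avg fun x : G n => sg (x ⬝ᵥ y) • s1 x)
          (avg fun x : G n => sg (x ⬝ᵥ y) • s2 x)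
        rw [h2]
        have h6 := norm_nonneg (avg fun x : G n => sg (x ⬝ᵥ y) • s1 x)
        have h7 := norm_nonneg (avg fun x : G n => sg (x ⬝ᵥ y) • s2 x)
        refine (pow_le_pow_left₀ (norm_nonneg _) h5 2).trans ?_
        generalize ‖avg fun x : G n => sg (x ⬝ᵥ y) • s1 x‖ = a at *
        generalize ‖avg fun x : G n => sg (x ⬝ᵥ y) • s2 x‖ = b at *
        nlinarith [sq_nonneg (a - b), mul_le_mul_of_nonneg_left h3 h6,
          mul_le_mul h4 h4 h7 (by positivity)]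
    _ ≤ 1 / 4 * σ ^ 2 := by
        rw [avg_add, avg_mul_left, avg_const]
        nlinarith

end Crest.Agent.R118
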