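import Crest.Agent.R118.Basic
import Crest.Prelude.Def_Rademacher

/-! Kahane's `L₁`-`L₂` inequality (Latała–Oleszkiewicz) and the `ℓ₁` consequence of cotype. -/

namespace Crest.Agent.R118

open Finset Crest.AnalysisR

theorem signAverage_eq {s : ℕ} (g : (Fin s → Bool) → ℝ) :
    signAverage g = avg fun η : G s => g fun i => decide (η i = 0) := by
  have hb : Function.Bijective (fun (η : G s) (i : Fin s) => decide (η i = 0)) := by
    constructor
    · intro a b h
      funext i
      have := congrFun h i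
      rcases z2_cases (a i) with h1 | h1 <;> rcases z2_cases (b i) with h2 | h2 <;>
        simp_all
    · intro ε
      refine ⟨fun i => if ε i then 0 else 1, ?_⟩
      funext i
      cases h : ε i <;> simp [h]
  rw [avg_bij hb g]
  simp [signAverage, avg]

theorem signVal_decide (z : ZMod 2) : signVal (decide (z = 0)) = sg z := by
  by_cases h : z = 0 <;> simp [signVal, sg, h]

theorem kah_sum_sg_le {k : ℕ} (a : G k) (ha : a ≠ 0) (hs : ∑ i, a i = 0) :
    ∑ j, sg (a j) ≤ (k : ℝ) - 4 := by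
  obtain ⟨i, hi⟩ := Function.ne_iff.1 ha
  have hi1 : a i = 1 := (z2_cases _).resolve_left hi
  have hj : ∃ j, j ≠ i ∧ a j = 1 := by
    by_contra hne
    push Not at hne
    have : ∑ l, a l = a i := by
      refine Finset.sum_eq_single i (fun j _ hj => ?_) (by simp)
      exact (z2_cases _).resolve_right (hne j hj)
    rw [hs, hi1] at this
    exact absurd this (by decide)
  obtain ⟨j, hji, hj1⟩ := hj
  have h1 : ∑ l ∈ ({i, j} : Finset (Fin k)), (1 - sg (a l)) ≤ ∑ l, (1 - sg (a l)) := by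
    refine Finset.sum_le_sum_of_subset_of_nonneg (Finset.subset_univ _) fun l _ _ => ?_
    rcases sg_cases (a l) with h | h <;> rw [h] <;> norm_num
  rw [Finset.sum_pair hji.symm, hi1, hj1, sg_one, Finset.sum_sub_distrib] at h1
  simp only [Finset.sum_const, Finset.card_univ, Fintype.card_fin, nsmul_eq_mul, mul_one] at h1
  linarith

/-- `F η = ‖∑ sg (η i) • y i‖` is even and `∑ i, F (η + single i 1) ≥ (k - 2) F η`; by `parseval`,
`(k-2) E F² ≤ ∑ a, (∑ i, sg (a i)) F̂(a)² ≤ 4 F̂(0)² + (k-4) E F²` as `F̂(a) = 0` for odd `|a|`. -/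
theorem kahane {E : Type*} [SeminormedAddCommGroup E] [NormedSpace ℝ E] {k : ℕ} (y : Fin k → E) :
    avg (fun η : G k => ‖∑ i, sg (η i) • y i‖ ^ 2) ≤
      2 * (avg fun η : G k => ‖∑ i, sg (η i) • y i‖) ^ 2 := by
  set F : G k → ℝ := fun η => ‖∑ i, sg (η i) • y i‖ with hF
  set Fh : G k → ℝ := fun a => avg fun x => sg (a ⬝ᵥ x) * F x with hFh
  have hF0 : ∀ η, 0 ≤ F η := fun η => norm_nonneg _
  -- shift identity
  have hshift : ∀ (b a : G k), (avg fun x => sg (a ⬝ᵥ x) * F (x + b)) = sg (a ⬝ᵥ b) * Fh a := by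
    intro b a
    rw [hFh, ← avg_mul_left, ← avg_add_right (fun x => sg (a ⬝ᵥ x) * F (x + b)) b]
    refine avg_congr fun x => ?_
    rw [add_assoc, G_add_self, add_zero, dotProduct_add, sg_add]; ring
  -- evenness
  have heven : ∀ η, F (η + fun _ => 1) = F η := by
    intro η
    simp only [hF, Pi.add_apply, sg_add, sg_one, mul_neg, mul_one, neg_smul,
      Finset.sum_neg_distrib, norm_neg]
  have hodd : ∀ a : G k, Fh a ≠ 0 → ∑ i, a i = 0 := by
    intro a ha
    by_contra hne
    have h1 : ∑ i, a i = 1 := (z2_cases _).resolve_left hne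
    have h2 := hshift (fun _ => 1) a
    simp only [heven] at h2
    have h3 : a ⬝ᵥ (fun _ => (1 : ZMod 2)) = 1 := by simp [dotProduct, h1]
    rw [h3, sg_one] at h2
    apply ha
    have : Fh a = -1 * Fh a := h2
    linarith
  -- the neighbour inequality
  have hnb : ∀ η, ((k : ℝ) - 2) * F η ≤ ∑ j, F (η + Pi.single j 1) := by
    intro η
    have h1 : ∑ j : Fin k, ∑ i, sg ((η + Pi.single j 1 : G k) i) • y i =
        ((k : ℝ) - 2) • ∑ i, sg (η i) • y i := by
      rw [Finset.sum_comm, Finset.smul_sum]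
      refine Finset.sum_congr rfl fun i _ => ?_
      rw [← Finset.sum_smul, smul_smul]
      congr 1
      have h2 : ∀ j : Fin k, sg ((η + Pi.single j 1 : G k) i) =
          sg (η i) - if j = i then 2 * sg (η i) else 0 := by
        intro j
        by_cases h : j = i
        · subst h; simp [sg_add]; ring
        · simp [h, Pi.single_apply, Ne.symm h]
      simp only [h2, Finset.sum_sub_distrib, Finset.sum_const, Finset.card_univ, Fintype.card_fin,
        nsmul_eq_mul, Finset.sum_ite_eq', Finset.mem_univ, if_true]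
      ring
    calc ((k : ℝ) - 2) * F η ≤ |(k : ℝ) - 2| * F η :=
          mul_le_mul_of_nonneg_right (le_abs_self _) (hF0 η)
      _ = ‖∑ j : Fin k, ∑ i, sg ((η + Pi.single j 1 : G k) i) • y i‖ := by
          rw [h1, norm_smul, Real.norm_eq_abs]
      _ ≤ _ := norm_sum_le _ _
  have hP : ∑ a, Fh a ^ 2 = avg fun η => F η ^ 2 := by
    have := parseval F F
    simpa only [hFh, sq] using this
  have h1 : ((k : ℝ) - 2) * (avg fun η => F η ^ 2) ≤ ∑ a : G k, (∑ j, sg (a j)) * Fh a ^ 2 := by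
    calc ((k : ℝ) - 2) * (avg fun η => F η ^ 2)
        = avg fun η => F η * (((k : ℝ) - 2) * F η) := by
          rw [← avg_mul_left]; exact avg_congr fun η => by ring
      _ ≤ avg fun η => ∑ j, F η * F (η + Pi.single j 1) := by
          refine avg_mono fun η => ?_
          rw [← Finset.mul_sum]
          exact mul_le_mul_of_nonneg_left (hnb η) (hF0 η)
      _ = ∑ j : Fin k, avg fun η => F η * F (η + Pi.single j 1) := avg_sum _ _
      _ = ∑ j : Fin k, ∑ a : G k, sg (a j) * Fh a ^ 2 := by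
          refine Finset.sum_congr rfl fun j _ => ?_
          refine (parseval F (fun η => F (η + Pi.single j 1))).symm.trans ?_
          refine Finset.sum_congr rfl fun a _ => ?_
          rw [hshift]
          simp only [dotProduct_single, mul_one, hFh]
          ring
      _ = _ := by
          rw [Finset.sum_comm]
          exact Finset.sum_congr rfl fun a _ => by rw [Finset.sum_mul]
  have h2 : ∀ a : G k, (∑ j, sg (a j)) * Fh a ^ 2 ≤
      (if a = 0 then 4 * Fh a ^ 2 else 0) + ((k : ℝ) - 4) * Fh a ^ 2 := by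
    intro a
    split_ifs with ha
    · subst ha
      simp only [Pi.zero_apply, sg_zero, Finset.sum_const, Finset.card_univ, Fintype.card_fin,
        nsmul_eq_mul, mul_one]
      linarith
    · by_cases h0 : Fh a = 0
      · simp [h0]
      rw [zero_add]
      exact mul_le_mul_of_nonneg_right (kah_sum_sg_le a ha (hodd a h0)) (sq_nonneg _)
  have h3 : ∑ a : G k, (∑ j, sg (a j)) * Fh a ^ 2 ≤
      4 * Fh 0 ^ 2 + ((k : ℝ) - 4) * avg fun η => F η ^ 2 := by
    refine (Finset.sum_le_sum fun a _ => h2 a).trans (le_of_eq ?_)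
    rw [Finset.sum_add_distrib, ← Finset.mul_sum, hP]
    simp
  have h4 : Fh 0 = avg F := by simp [hFh]
  rw [h4] at h3
  have h5 := h1.trans h3
  change avg (fun η => F η ^ 2) ≤ 2 * (avg F) ^ 2
  linarith

/-- Hölder, cotype and `kahane`. -/
theorem sum_norm_le_of_cotype {E : Type*} [NormedAddCommGroup E] [NormedSpace ℝ E] {q C : ℝ}
    (h : HasRademacherCotype E q C) (hq : 1 ≤ q) {P N : ℕ} (hP : q ≤ P) (hN : 1 ≤ N)
    (y : Fin (N ^ (4 * P)) → E) :
    ∑ i, ‖y i‖ ≤ (2 * |C| * (N : ℝ) ^ (4 * P) / (N : ℝ) ^ 4) *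
      avg fun η : G (N ^ (4 * P)) => ‖∑ i, sg (η i) • y i‖ := by
  set A : ℝ := avg fun η : G (N ^ (4 * P)) => ‖∑ i, sg (η i) • y i‖ with hA
  have hA0 : 0 ≤ A := avg_nonneg fun _ => norm_nonneg _
  have hN1 : (1 : ℝ) ≤ N := by exact_mod_cast hN
  have hN0 : (0 : ℝ) < N := by linarith
  have hq0 : 0 < q := by linarith
  have hP0 : (0 : ℝ) < P := by linarith
  have h1 := Real.inner_le_weight_mul_Lp_of_nonneg (Finset.univ : Finset (Fin (N ^ (4 * P)))) hq
    (fun _ => 1) (fun i => ‖y i‖) (fun _ => zero_le_one) (fun _ => norm_nonneg _)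
  simp only [one_mul, Finset.sum_const, Finset.card_univ, Fintype.card_fin, nsmul_eq_mul,
    mul_one, Nat.cast_pow] at h1
  have h2 := h _ y
  rw [signAverage_eq] at h2
  simp only [signVal_decide, Real.rpow_two] at h2
  have h3 := kahane y
  rw [← hA] at h3
  have h4 : (avg fun η : G (N ^ (4 * P)) => ‖∑ i, sg (η i) • y i‖ ^ 2) ^ (1 / 2 : ℝ) ≤ 2 * A := by
    rw [← Real.sqrt_eq_rpow]
    refine Real.sqrt_le_iff.2 ⟨by positivity, h3.trans ?_⟩
    nlinarith [sq_nonneg A]
  have h5 : (∑ i, ‖y i‖ ^ q) ^ q⁻¹ ≤ |C| * (2 * A) := by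
    rw [← one_div]
    refine h2.trans ?_
    exact mul_le_mul (le_abs_self C) h4
      (Real.rpow_nonneg (avg_nonneg fun _ => sq_nonneg _) _) (abs_nonneg C)
  have h6 : ((N : ℝ) ^ (4 * P)) ^ (1 - q⁻¹) ≤ (N : ℝ) ^ (4 * P) / (N : ℝ) ^ 4 := by
    have hb : (1 : ℝ) ≤ (N : ℝ) ^ (4 * P) := one_le_pow₀ hN1
    have hle : 1 - q⁻¹ ≤ 1 - (P : ℝ)⁻¹ := by
      have := inv_anti₀ hq0 hP
      linarith
    refine (Real.rpow_le_rpow_of_exponent_le hb hle).trans (le_of_eq ?_)
    rw [Real.rpow_sub (by positivity), Real.rpow_one]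
    congr 1
    rw [pow_mul, Real.pow_rpow_inv_natCast (by positivity)]
    exact_mod_cast hP0.ne'
  calc ∑ i, ‖y i‖ ≤ _ := h1
    _ ≤ ((N : ℝ) ^ (4 * P) / (N : ℝ) ^ 4) * (|C| * (2 * A)) :=
        mul_le_mul h6 h5 (Real.rpow_nonneg (Finset.sum_nonneg fun i _ =>
          Real.rpow_nonneg (norm_nonneg _) _) _) (by positivity)
    _ = _ := by ring

end Crest.Agent.R118
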