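import Crest.Agent.R118.Basic

/-! Abstract Kato step: a resolvent bound for a multiplier semigroup bounds the level-1 projection. -/

namespace Crest.Agent.R118

open Finset

/-- The constant in `kato`. -/
noncomputable def katoC (K : ℝ) : ℝ := 8 * Real.pi * K * Real.exp (4 * Real.pi ^ 2 * K + 1)

section aux

variable {J : Type*} {A : Type*} [NormedRing A] [NormedSpace ℝ A]

/-- complexified norm -/
noncomputable def katoN (Φ : (J → ℝ) →ₗ[ℝ] A) (m : J → ℂ) : ℝ :=
  ‖Φ fun a => (m a).re‖ + ‖Φ fun a => (m a).im‖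

theorem katoN_nonneg (Φ : (J → ℝ) →ₗ[ℝ] A) (m : J → ℂ) : 0 ≤ katoN Φ m := by
  unfold katoN; positivity

theorem katoN_add (Φ : (J → ℝ) →ₗ[ℝ] A) (m m' : J → ℂ) :
    katoN Φ (fun a => m a + m' a) ≤ katoN Φ m + katoN Φ m' := by
  unfold katoN
  have e1 : (fun a => (m a + m' a).re) = (fun a => (m a).re) + fun a => (m' a).re := by
    funext a; simp
  have e2 : (fun a => (m a + m' a).im) = (fun a => (m a).im) + fun a => (m' a).im := by
    funext a; simp
  rw [e1, e2, map_add, map_add]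
  linarith [norm_add_le (Φ fun a => (m a).re) (Φ fun a => (m' a).re),
    norm_add_le (Φ fun a => (m a).im) (Φ fun a => (m' a).im)]

theorem katoN_smul (Φ : (J → ℝ) →ₗ[ℝ] A) (r : ℝ) (m : J → ℂ) :
    katoN Φ (fun a => r * m a) = |r| * katoN Φ m := by
  unfold katoN
  have e1 : (fun a => ((r : ℂ) * m a).re) = r • fun a => (m a).re := by
    funext a; simp
  have e2 : (fun a => ((r : ℂ) * m a).im) = r • fun a => (m a).im := by
    funext a; simp
  rw [e1, e2, map_smul, map_smul, norm_smul, norm_smul, Real.norm_eq_abs]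
  ring

theorem katoN_mul (Φ : (J → ℝ) →ₗ[ℝ] A) (hmul : ∀ m m', Φ (m * m') = Φ m * Φ m') (m m' : J → ℂ) :
    katoN Φ (fun a => m a * m' a) ≤ katoN Φ m * katoN Φ m' := by
  unfold katoN
  set p : J → ℝ := fun a => (m a).re
  set q : J → ℝ := fun a => (m a).im
  set p' : J → ℝ := fun a => (m' a).re
  set q' : J → ℝ := fun a => (m' a).im
  have e1 : (fun a => (m a * m' a).re) = p * p' - q * q' := by
    funext a; simp [p, q, p', q']
  have e2 : (fun a => (m a * m' a).im) = p * q' + q * p' := by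
    funext a; simp [p, q, p', q']
  rw [e1, e2, map_add, map_sub, hmul, hmul, hmul, hmul]
  have h1 := norm_sub_le (Φ p * Φ p') (Φ q * Φ q')
  have h2 := norm_add_le (Φ p * Φ q') (Φ q * Φ p')
  have h3 := norm_mul_le (Φ p) (Φ p')
  have h4 := norm_mul_le (Φ q) (Φ q')
  have h5 := norm_mul_le (Φ p) (Φ q')
  have h6 := norm_mul_le (Φ q) (Φ p')
  nlinarith

theorem kato_int [Fintype J] [CompleteSpace A] (deg : J → ℕ) (Φ : (J → ℝ) →ₗ[ℝ] A)
    (h1 : ∀ t : ℝ, 0 ≤ t → ‖Φ fun a => Real.exp (-(t * deg a))‖ ≤ 1) (c : ℝ → ℝ)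
    (hc : Continuous c) (hc1 : ∀ s, |c s| ≤ 1) (t : ℝ) (ht : 0 ≤ t) :
    ‖Φ fun a => ∫ s in (0 : ℝ)..t, c s * Real.exp (-(s * deg a))‖ ≤ t := by
  set F : ℝ → J → ℝ := fun s a => c s * Real.exp (-(s * deg a)) with hF
  have hFc : Continuous F := by rw [hF]; fun_prop
  have e : (fun a => ∫ s in (0 : ℝ)..t, c s * Real.exp (-(s * deg a))) = ∫ s in (0 : ℝ)..t, F s := by
    funext a
    exact (ContinuousLinearMap.proj (R := ℝ) (φ := fun _ : J => ℝ) a).intervalIntegral_comp_comm
      (hFc.intervalIntegrable 0 t)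
  rw [e, ← LinearMap.coe_toContinuousLinearMap' Φ,
    ← (LinearMap.toContinuousLinearMap Φ).intervalIntegral_comp_comm (hFc.intervalIntegrable 0 t)]
  refine (intervalIntegral.norm_integral_le_of_norm_le_const (C := 1) fun s hs => ?_).trans
    (by rw [sub_zero, abs_of_nonneg ht, one_mul])
  rw [Set.uIoc_of_le ht] at hs
  have e2 : F s = c s • fun a => Real.exp (-(s * deg a)) := rfl
  rw [LinearMap.coe_toContinuousLinearMap', e2, map_smul, norm_smul, Real.norm_eq_abs]
  exact mul_le_one₀ (hc1 s) (norm_nonneg _) (h1 s hs.1.le)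

theorem kato_axis [Fintype J] [CompleteSpace A] (deg : J → ℕ) (Φ : (J → ℝ) →ₗ[ℝ] A)
    (hmul : ∀ m m', Φ (m * m') = Φ m * Φ m') {K : ℝ}
    (h1 : ∀ t : ℝ, 0 ≤ t → ‖Φ fun a => Real.exp (-(t * deg a))‖ ≤ 1)
    (h2 : ∀ t : ℝ, 0 < t → ‖Φ fun a => 1 / (1 + Real.exp (-(t * deg a)))‖ ≤ K) (y : ℝ) (hy : y ≠ 0) :
    katoN Φ (fun a => 1 / (y * Complex.I + deg a)) ≤ 2 * Real.pi * K / |y| := by
  have hy' : 0 < |y| := abs_pos.2 hy
  set t := Real.pi / |y| with ht
  have ht0 : 0 < t := by have := Real.pi_pos; positivity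
  set I : J → ℂ := fun a => ∫ s in (0 : ℝ)..t, Complex.exp (-(y * Complex.I + deg a) * s) with hI
  have hne : ∀ a, (y * Complex.I + deg a : ℂ) ≠ 0 := fun a h => hy (by simpa using congrArg Complex.im h)
  have hyt : Complex.exp (-(y * t) * Complex.I) = -1 := by
    have hyc : (y : ℂ) ≠ 0 := by exact_mod_cast hy
    rcases lt_or_gt_of_ne hy with h | h
    · have : -(y * t : ℂ) = Real.pi := by
        rw [ht, abs_of_neg h]; push_cast; field_simp
      rw [this, Complex.exp_pi_mul_I]
    · have : -(y * t : ℂ) * Complex.I = -(Real.pi * Complex.I) := by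
        rw [ht, abs_of_pos h]; push_cast; field_simp
      rw [this, Complex.exp_neg, Complex.exp_pi_mul_I]; norm_num
  have e : (fun a => 1 / (y * Complex.I + deg a : ℂ)) =
      fun a => I a * ((1 / (1 + Real.exp (-(t * deg a))) : ℝ) : ℂ) := by
    funext a
    have h0 : (1 + Real.exp (-(t * deg a)) : ℂ) ≠ 0 := by
      exact_mod_cast (by positivity : (1 + Real.exp (-(t * deg a)) : ℝ) ≠ 0)
    have h3 : Complex.exp (-(y * Complex.I + deg a) * t) = -(Real.exp (-(t * deg a)) : ℝ) := by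
      rw [show -(y * Complex.I + deg a : ℂ) * t = -(y * t) * Complex.I + -(t * deg a) by ring,
        Complex.exp_add, hyt]
      push_cast; ring
    simp only [hI]
    rw [integral_exp_mul_complex (neg_ne_zero.2 (hne a)), h3, Complex.ofReal_div, Complex.ofReal_add]
    have := hne a
    simp only [Complex.ofReal_zero, mul_zero, Complex.exp_zero, Complex.ofReal_one]
    field_simp
    ring
  have hc : ∀ a, Continuous fun s : ℝ => Complex.exp (-(y * Complex.I + deg a) * s) := fun a => by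
    fun_prop
  have hre : (fun a => (I a).re) =
      fun a => ∫ s in (0 : ℝ)..t, Real.cos (y * s) * Real.exp (-(s * deg a)) := by
    funext a
    have := Complex.reCLM.intervalIntegral_comp_comm ((hc a).intervalIntegrable 0 t)
      (μ := MeasureTheory.volume)
    simp only [Complex.reCLM_apply] at this
    simp only [hI]
    rw [← this]
    congr 1; funext s
    simp [Complex.exp_re, mul_comm]
  have him : (fun a => (I a).im) =
      fun a => ∫ s in (0 : ℝ)..t, -Real.sin (y * s) * Real.exp (-(s * deg a)) := by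
    funext a
    have := Complex.imCLM.intervalIntegral_comp_comm ((hc a).intervalIntegrable 0 t)
      (μ := MeasureTheory.volume)
    simp only [Complex.imCLM_apply] at this
    simp only [hI]
    rw [← this]
    congr 1; funext s
    simp [Complex.exp_im, mul_comm]
  have b1 : katoN Φ I ≤ 2 * t := by
    unfold katoN
    rw [hre, him]
    have a1 := kato_int deg Φ h1 (fun s => Real.cos (y * s)) (by fun_prop)
      (fun s => Real.abs_cos_le_one _) t ht0.le
    have a2 := kato_int deg Φ h1 (fun s => -Real.sin (y * s)) (by fun_prop)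
      (fun s => by rw [abs_neg]; exact Real.abs_sin_le_one _) t ht0.le
    linarith
  have b2 : katoN Φ (fun a => ((1 / (1 + Real.exp (-(t * deg a))) : ℝ) : ℂ)) ≤ K := by
    unfold katoN
    simp only [Complex.ofReal_re, Complex.ofReal_im]
    have : Φ (fun _ => 0) = 0 := map_zero Φ
    rw [this, norm_zero, add_zero]
    exact h2 t ht0
  rw [e]
  refine (katoN_mul Φ hmul _ _).trans ((mul_le_mul b1 b2 (katoN_nonneg _ _) (by positivity)).trans
    (le_of_eq ?_))
  rw [ht]; ring

theorem kato_sector (deg : J → ℕ) (Φ : (J → ℝ) →ₗ[ℝ] A)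
    (hmul : ∀ m m', Φ (m * m') = Φ m * Φ m') {K2 : ℝ} (z : ℂ) (hy : z.im ≠ 0)
    (h : katoN Φ (fun a => 1 / (z.im * Complex.I + deg a)) ≤ K2 / |z.im|)
    (hz : 2 * K2 * |z.re| ≤ |z.im|) : katoN Φ (fun a => 1 / (z + deg a)) ≤ 2 * K2 / |z.im| := by
  have hy' : 0 < |z.im| := abs_pos.2 hy
  have e : (fun a => 1 / (z + deg a : ℂ)) = fun a => 1 / (z.im * Complex.I + deg a)
      + ((-z.re : ℝ) : ℂ) * (1 / (z.im * Complex.I + deg a) * (1 / (z + deg a))) := by
    funext a
    have h1 : (z.im * Complex.I + deg a : ℂ) ≠ 0 := fun h => hy (by simpa using congrArg Complex.im h)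
    have h2 : (z + deg a : ℂ) ≠ 0 := fun h => hy (by simpa using congrArg Complex.im h)
    field_simp
    push_cast
    linear_combination Complex.re_add_im z
  have a1 := katoN_add Φ (fun a => 1 / (z.im * Complex.I + deg a))
    fun a => ((-z.re : ℝ) : ℂ) * (1 / (z.im * Complex.I + deg a) * (1 / (z + deg a)))
  rw [← e, katoN_smul, abs_neg] at a1
  have a2 := katoN_mul Φ hmul (fun a => 1 / (z.im * Complex.I + deg a)) fun a => 1 / (z + deg a)
  have a3 := katoN_nonneg Φ fun a => 1 / (z + deg a : ℂ)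
  set X := katoN Φ fun a => 1 / (z + deg a : ℂ)
  have a4 : |z.re| * (K2 / |z.im|) ≤ 1 / 2 := by
    rw [← mul_div_assoc, div_le_iff₀ hy']; linarith
  have a5 : |z.re| * katoN Φ (fun a => 1 / (z.im * Complex.I + deg a) * (1 / (z + deg a)))
      ≤ |z.re| * (K2 / |z.im| * X) := by gcongr; exact a2.trans (by gcongr)
  have a6 : |z.re| * (K2 / |z.im|) * X ≤ 1 / 2 * X := by gcongr
  rw [mul_div_assoc]
  nlinarith

theorem kato_sin (z : ℂ) : ‖Complex.sin z‖ ≤ Real.exp |z.im| := by
  unfold Complex.sin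
  rw [norm_div, norm_mul, Complex.norm_I, mul_one, Complex.norm_two]
  have h := norm_sub_le (Complex.exp (-z * Complex.I)) (Complex.exp (z * Complex.I))
  rw [Complex.norm_exp, Complex.norm_exp] at h
  have h1 : Real.exp (-z * Complex.I).re ≤ Real.exp |z.im| :=
    Real.exp_le_exp.2 (by simpa using le_abs_self _)
  have h2 : Real.exp (z * Complex.I).re ≤ Real.exp |z.im| :=
    Real.exp_le_exp.2 (by simpa using neg_le_abs _)
  linarith

end aux

/-- Abstract Kato lemma.  Write `N m = ‖Φ m‖`, and for complex `m : J → ℂ`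
`Nc m = N (re ∘ m) + N (im ∘ m)` (subadditive, submultiplicative, `Nc (r • m) = |r| Nc m` for real `r`).
Put `K2 = 2πK`, `R z = fun a => 1 / (z + deg a)`.
(1) For real `y ≠ 0`, `t = π/|y|`: `∫_0^t exp(-(d+iy)s) ds = (1 + exp(-d t))/(d+iy)`; real and imaginary
parts are `∫_0^t cos(ys) e^{-sd}`, `-∫_0^t sin(ys) e^{-sd}`, each of `N`-norm `≤ t` (`Φ` is continuous, commutes
with the interval integral), so `Nc (R (iy)) ≤ 2 t K = K2/|y|`.
(2) For `z = σ + iy` with `|σ| ≤ |y|/(2 K2)`: `R z = R (iy) - σ R(iy) R z`, so `Nc (R z) ≤ 2 K2/|y|`.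
(3) Take `φ : A →L[ℝ] ℝ` of norm `≤ 1` norming `Φ 1_{deg = 1}` (`exists_dual_vector''`),
`c a = φ (Φ (Pi.single a 1))`, so `‖∑ a, c a * m a‖ ≤ Nc m` for all complex `m`.
`H z = exp(t z) * z * ∑ a, c a * dslope (fun w => sin (π w)) (-deg a) z`, `t = 2π K2 + 1`, is entire
(`Complex.differentiableOn_dslope`).  On the triangle `U = {z | -ρ < re z ∧ |im z| < -2 K2 * re z}`:
on the slanted sides `‖H z‖ ≤ 4 K2` (`‖sin (π z)‖ ≤ exp (π |im z|)`, `H 0 = 0`), on the side `re z = -ρ`
(`ρ ≥ max deg + 1` large) `‖H z‖ ≤ exp(-ρ) (1 + 2 K2) ρ ∑ |c a| ≤ 4 K2`.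
`Complex.norm_le_of_forall_mem_frontier_norm_le` at `z = -1` gives `π e^{-t} ‖Φ 1_{deg=1}‖ ≤ 4 K2`. -/
theorem kato {J : Type*} [Fintype J] (deg : J → ℕ) {A : Type*} [NormedRing A] [NormedSpace ℝ A]
    [CompleteSpace A] (Φ : (J → ℝ) →ₗ[ℝ] A) (hmul : ∀ m m', Φ (m * m') = Φ m * Φ m')
    {K : ℝ} (hK : 1 ≤ K)
    (h1 : ∀ t : ℝ, 0 ≤ t → ‖Φ fun a => Real.exp (-(t * deg a))‖ ≤ 1)
    (h2 : ∀ t : ℝ, 0 < t → ‖Φ fun a => 1 / (1 + Real.exp (-(t * deg a)))‖ ≤ K) :
    ‖Φ fun a => if deg a = 1 then 1 else 0‖ ≤ katoC K := by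
  classical
  have hpi := Real.pi_gt_three
  set K2 := 2 * Real.pi * K with hK2
  have hK2' : 1 ≤ K2 := by nlinarith
  obtain ⟨φ, hφ1, hφ2⟩ := exists_dual_vector'' ℝ (Φ fun a => if deg a = 1 then 1 else 0)
  set c : J → ℝ := fun a => φ (Φ (Pi.single a 1)) with hc
  have hsum : ∀ m : J → ℝ, ∑ a, c a * m a = φ (Φ m) := fun m => by
    conv_rhs => rw [pi_eq_sum_univ' m]
    simp only [map_sum, map_smul, smul_eq_mul, hc, mul_comm]
  have hφ : ∀ x, |φ x| ≤ ‖x‖ := fun x =>
    (φ.le_opNorm x).trans (mul_le_of_le_one_left (norm_nonneg _) hφ1)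
  have hN : ∀ m : J → ℂ, ‖∑ a, (c a : ℂ) * m a‖ ≤ katoN Φ m := fun m => by
    refine (Complex.norm_le_abs_re_add_abs_im _).trans ?_
    simp only [Complex.re_sum, Complex.im_sum, Complex.re_ofReal_mul, Complex.im_ofReal_mul, hsum]
    exact add_le_add (hφ _) (hφ _)
  set t := Real.pi * (2 * K2) + 1 with ht
  set f : ℂ → ℂ := fun w => Complex.sin (Real.pi * w) with hf
  set H : ℂ → ℂ := fun z => Complex.exp (t * z) * z * ∑ a, (c a : ℂ) * dslope f (-(deg a : ℂ)) z
    with hH
  have hfd : Differentiable ℂ f := by rw [hf]; fun_prop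
  have hHd : Differentiable ℂ H := by
    have : ∀ a, Differentiable ℂ (dslope f (-(deg a : ℂ))) := fun a =>
      differentiableOn_univ.1 ((Complex.differentiableOn_dslope Filter.univ_mem).2
        hfd.differentiableOn)
    rw [hH]; fun_prop
  have hf0 : ∀ n : ℕ, f (-(n : ℂ)) = 0 := fun n => by
    simp only [hf]
    rw [mul_neg, Complex.sin_neg, mul_comm, Complex.sin_nat_mul_pi, neg_zero]
  have hds : ∀ (z : ℂ) (a : J), z + deg a ≠ 0 →
      dslope f (-(deg a : ℂ)) z = f z * (1 / (z + deg a)) := fun z a h => by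
    rw [dslope_of_ne _ (fun h' => h (by rw [h']; ring)), slope_def_field, hf0]
    simp [div_eq_mul_inv]
  have hHn : ∀ z : ℂ, (∀ a, z + deg a ≠ 0) → ‖H z‖ ≤ Real.exp (t * z.re + Real.pi * |z.im|) *
      ((|z.re| + |z.im|) * ‖∑ a, (c a : ℂ) * (1 / (z + deg a))‖) := fun z hz => by
    have e : H z = Complex.exp (t * z) * f z * (z * ∑ a, (c a : ℂ) * (1 / (z + deg a))) := by
      simp only [hH, hds z _ (hz _), Finset.mul_sum]
      exact Finset.sum_congr rfl fun a _ => by ring
    have a1 : ‖f z‖ ≤ Real.exp (Real.pi * |z.im|) := by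
      refine (kato_sin _).trans (le_of_eq ?_)
      rw [Complex.im_ofReal_mul, abs_mul, abs_of_pos Real.pi_pos]
    rw [e, norm_mul, norm_mul, norm_mul, Complex.norm_exp, Complex.re_ofReal_mul, Real.exp_add]
    gcongr
    exact Complex.norm_le_abs_re_add_abs_im z
  set S := ∑ a, |c a| with hS
  have hS0 : 0 ≤ S := Finset.sum_nonneg fun a _ => abs_nonneg _
  set ρ : ℝ := (∑ a, (deg a : ℝ)) + 2 + 2 * S with hρ
  have hd0 : 0 ≤ ∑ a, (deg a : ℝ) := Finset.sum_nonneg fun a _ => Nat.cast_nonneg _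
  have hdeg : ∀ a, (deg a : ℝ) + 1 ≤ ρ := fun a => by
    have := Finset.single_le_sum (f := fun a => (deg a : ℝ)) (fun a _ => Nat.cast_nonneg _)
      (Finset.mem_univ a)
    linarith
  set U : Set ℂ := {z | -ρ < z.re ∧ |z.im| < -(2 * K2) * z.re} with hU
  have hUo : IsOpen U :=
    (isOpen_lt continuous_const Complex.continuous_re).inter 
      (isOpen_lt Complex.continuous_im.abs (continuous_const.mul Complex.continuous_re))
  have hcl : closure U ⊆ {z | -ρ ≤ z.re ∧ |z.im| ≤ -(2 * K2) * z.re} :=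
    closure_minimal (fun z hz => ⟨hz.1.le, hz.2.le⟩)
      ((isClosed_le continuous_const Complex.continuous_re).inter
        (isClosed_le Complex.continuous_im.abs (continuous_const.mul Complex.continuous_re)))
  have hUb : Bornology.IsBounded U := by
    refine (Metric.isBounded_closedBall (x := (0 : ℂ)) (r := ρ + 2 * K2 * ρ)).subset fun z hz => ?_
    rw [mem_closedBall_zero_iff]
    refine (Complex.norm_le_abs_re_add_abs_im z).trans ?_
    have a1 := hz.1
    have a2 := hz.2
    have a3 : z.re ≤ 0 := by nlinarith [abs_nonneg z.im]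
    rw [abs_of_nonpos a3]
    nlinarith
  have hb : ‖H (-1)‖ ≤ 4 * K2 := by
    refine Complex.norm_le_of_forall_mem_frontier_norm_le hUb hHd.diffContOnCl (fun z hz => ?_)
      (subset_closure ⟨by simp; linarith, by simp; linarith⟩)
    rw [hUo.frontier_eq] at hz
    obtain ⟨⟨a1, a2⟩, a3⟩ : (-ρ ≤ z.re ∧ |z.im| ≤ -(2 * K2) * z.re) ∧ z ∉ U := ⟨hcl hz.1, hz.2⟩
    have a4 : z.re ≤ 0 := by nlinarith [abs_nonneg z.im]
    by_cases hr : -ρ < z.re
    · have a5 : |z.im| = -(2 * K2) * z.re := le_antisymm a2 (not_lt.1 fun h => a3 ⟨hr, h⟩)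
      by_cases hy : z.im = 0
      · have : z.re = 0 := by rw [hy, abs_zero] at a5; nlinarith
        have : z = 0 := Complex.ext this hy
        simp only [hH, this, mul_zero, zero_mul, norm_zero]
        linarith
      have hy' : 0 < |z.im| := abs_pos.2 hy
      have b1 := kato_sector deg Φ hmul z hy (kato_axis deg Φ hmul h1 h2 z.im hy)
        (by rw [abs_of_nonpos a4]; linarith)
      refine (hHn z fun a h => hy (by simpa using congrArg Complex.im h)).trans ?_
      have b2 : Real.exp (t * z.re + Real.pi * |z.im|) ≤ 1 :=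
        Real.exp_le_one_iff.2 (by rw [a5, ht]; linarith)
      have b3 : |z.re| + |z.im| ≤ 2 * |z.im| := by rw [abs_of_nonpos a4]; nlinarith
      calc _ ≤ 1 * (2 * |z.im| * (2 * K2 / |z.im|)) := by gcongr; exact (hN _).trans b1
        _ = 4 * K2 := by field_simp; norm_num
    · have a5 : z.re = -ρ := le_antisymm (not_lt.1 hr) a1
      have hρ0 : 0 < ρ := by linarith
      have b0 : ∀ a, 1 ≤ ‖z + deg a‖ := fun a => by
        refine le_trans ?_ (Complex.abs_re_le_norm _)
        have := hdeg a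
        rw [Complex.add_re, Complex.natCast_re, a5, abs_of_nonpos (by linarith)]
        linarith
      refine (hHn z fun a h => by have := b0 a; rw [h, norm_zero] at this; linarith).trans ?_
      have b1 : ‖∑ a, (c a : ℂ) * (1 / (z + deg a))‖ ≤ S := by
        refine (norm_sum_le _ _).trans (Finset.sum_le_sum fun a _ => ?_)
        rw [norm_mul, Complex.norm_real, Real.norm_eq_abs, norm_div, norm_one]
        exact mul_le_of_le_one_right (abs_nonneg _) (div_le_one_of_le₀ (b0 a) (norm_nonneg _))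
      have b2 : Real.exp (t * z.re + Real.pi * |z.im|) ≤ 2 / ρ ^ 2 := by
        have c1 : t * z.re + Real.pi * |z.im| ≤ -ρ := by
          have : Real.pi * |z.im| ≤ Real.pi * (-(2 * K2) * z.re) := by gcongr
          rw [ht]; rw [a5] at this ⊢; linarith
        refine (Real.exp_le_exp.2 c1).trans ?_
        have c2 := Real.quadratic_le_exp_of_nonneg hρ0.le
        rw [Real.exp_neg, inv_eq_one_div, div_le_div_iff₀ (Real.exp_pos _) (by positivity)]
        linarith
      have b3 : |z.re| + |z.im| ≤ 4 * K2 * ρ := by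
        rw [a5] at a2; rw [a5, abs_neg, abs_of_pos hρ0]; nlinarith
      have b4 : S ≤ ρ / 2 := by linarith
      calc _ ≤ 2 / ρ ^ 2 * (4 * K2 * ρ * (ρ / 2)) := by gcongr; exact b1.trans b4
        _ = 4 * K2 := by field_simp
  have hval : H (-1) = Complex.exp (-t) * Real.pi *
      (‖Φ fun a => if deg a = 1 then 1 else 0‖ : ℝ) := by
    have e1 : ∀ a, dslope f (-(deg a : ℂ)) (-1) =
        -Real.pi * ((if deg a = 1 then 1 else 0 : ℝ) : ℂ) := fun a => by
      by_cases h : deg a = 1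
      · have : HasDerivAt f (Complex.cos (Real.pi * -1) * (Real.pi * 1)) (-1) :=
          ((hasDerivAt_id (-1 : ℂ)).const_mul (Real.pi : ℂ)).csin
        simp [h, this.deriv]
      · rw [hds _ _ (fun h' => h (by
          have : (deg a : ℂ) = 1 := by linear_combination h'
          exact_mod_cast this))]
        have := hf0 1
        rw [Nat.cast_one] at this
        simp [h, this]
    have e2 := hsum fun a => if deg a = 1 then 1 else 0
    rw [hφ2] at e2
    simp only [RCLike.ofReal_real_eq_id, id] at e2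
    rw [← e2]
    simp only [hH, e1]
    push_cast
    rw [Finset.mul_sum, Finset.mul_sum]
    exact Finset.sum_congr rfl fun a _ => by ring_nf
  rw [hval, norm_mul, norm_mul, Complex.norm_exp, Complex.norm_real, Complex.norm_real,
    norm_norm, Real.norm_eq_abs, abs_of_pos Real.pi_pos, Complex.neg_re, Complex.ofReal_re,
    Real.exp_neg] at hb
  have he : t = 4 * Real.pi ^ 2 * K + 1 := by rw [ht, hK2]; ring
  unfold katoC
  rw [← he]
  have hE := Real.exp_pos t
  have hn := norm_nonneg (Φ fun a => if deg a = 1 then 1 else 0)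
  rw [mul_assoc, inv_mul_le_iff₀ hE, hK2] at hb
  nlinarith

end Crest.Agent.R118
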