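import Crest.Agent.R118.Basic

/-! A finitely supported probability law on `[-1,1]` with positive mean and vanishing odd moments. -/

namespace Crest.Agent.R118

open Finset

theorem exists_moments (D : ℕ) : ∃ (Ω : Type) (_ : Fintype Ω) (p g : Ω → ℝ),
    (∀ ω, 0 ≤ p ω) ∧ ∑ ω, p ω = 1 ∧ (∀ ω, |g ω| ≤ 1) ∧ 0 < ∑ ω, p ω * g ω ∧
      ∀ a, Odd a → 3 ≤ a → a ≤ D → ∑ ω, p ω * g ω ^ a = 0 := by
  induction D with
  | zero => exact ⟨Unit, inferInstance, fun _ => 1, fun _ => 1, by simp, by simp, by simp, by simp,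
      fun a _ h1 h2 => by omega⟩
  | succ D ih =>
    obtain ⟨Ω, _, p, g, h0, h1, h2, h3, h4⟩ := ih
    by_cases hD : D + 1 < 3
    · exact ⟨Ω, inferInstance, p, g, h0, h1, h2, h3, fun a _ h5 h6 => by omega⟩
    set r : ℝ := 1 / (2 ^ (D + 1) + 1) with hr
    have h8 : (8 : ℝ) ≤ 2 ^ (D + 1) := by
      calc (8 : ℝ) = 2 ^ 3 := by norm_num
        _ ≤ 2 ^ (D + 1) := pow_le_pow_right₀ (by norm_num) (by omega)
    have hr0 : 0 ≤ r := by positivity
    have hr1 : r ≤ 1 / 9 := by
      rw [hr]; exact one_div_le_one_div_of_le (by norm_num) (by linarith)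
    have hm : ∀ a : ℕ, ∑ ω : Ω × Bool, (p ω.1 * if ω.2 then r else 1 - r) *
        (g ω.1 * if ω.2 then -1 else 1 / 2) ^ a =
        (∑ ω, p ω * g ω ^ a) * (r * (-1) ^ a + (1 - r) * (1 / 2) ^ a) := by
      intro a
      rw [Fintype.sum_prod_type, Finset.sum_mul]
      refine Finset.sum_congr rfl fun ω _ => ?_
      simp only [Fintype.sum_bool, if_true, Bool.false_eq_true, if_false, mul_pow]
      ring
    refine ⟨Ω × Bool, inferInstance, fun ω => p ω.1 * if ω.2 then r else 1 - r,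
      fun ω => g ω.1 * if ω.2 then -1 else 1 / 2, fun ω => ?_, ?_, fun ω => ?_, ?_,
      fun a ha h5 h6 => ?_⟩
    · refine mul_nonneg (h0 _) ?_
      split_ifs <;> linarith
    · have := hm 0
      simpa [h1] using this
    · rw [abs_mul]
      refine mul_le_one₀ (h2 _) (abs_nonneg _) ?_
      split_ifs <;> norm_num [abs_of_pos]
    · have := hm 1
      simp only [pow_one] at this
      rw [this]
      exact mul_pos h3 (by linarith)
    · rw [hm]
      rcases Nat.lt_or_ge a (D + 1) with h7 | h7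
      · rw [h4 a ha h5 (by omega), zero_mul]
      · have : a = D + 1 := by omega
        subst this
        rw [ha.neg_one_pow, hr, one_div_pow]
        have : -1 * (1 / ((2 : ℝ) ^ (D + 1) + 1)) + (1 - 1 / (2 ^ (D + 1) + 1)) * (1 / 2 ^ (D + 1)) = 0 := by
          field_simp; ring
        rw [mul_comm (1 / ((2 : ℝ) ^ (D + 1) + 1)) (-1), this, mul_zero]

/-- Mixed moments of an i.i.d. tuple. -/
theorem sum_prod_moments {Ω ι : Type*} [Fintype Ω] {k : ℕ} (p g : Ω → ℝ) (Λ : Finset ι)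
    (e : ι → Fin k) :
    ∑ a : Fin k → Ω, (∏ j, p (a j)) * ∏ q ∈ Λ, g (a (e q)) =
      ∏ j, ∑ ω, p ω * g ω ^ (Λ.filter fun q => e q = j).card := by
  classical
  rw [Finset.prod_univ_sum, Fintype.piFinset_univ]
  refine Finset.sum_congr rfl fun a _ => ?_
  rw [Finset.prod_mul_distrib, ← Finset.prod_fiberwise Λ e]
  congr 1
  refine Finset.prod_congr rfl fun j _ => ?_
  rw [← Finset.prod_const]
  refine Finset.prod_congr rfl fun q hq => ?_
  rw [(Finset.mem_filter.1 hq).2]

theorem sum_pow_card_le (k : ℕ) : ∑ A : Finset (Fin k), (1 / (k : ℝ)) ^ A.card ≤ 3 := by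
  have h1 : ∑ A : Finset (Fin k), (1 / (k : ℝ)) ^ A.card = (1 + 1 / (k : ℝ)) ^ k := by
    have := Finset.prod_one_add (s := (Finset.univ : Finset (Fin k))) (f := fun _ => 1 / (k : ℝ))
    simp only [Finset.prod_const, Finset.card_univ, Fintype.card_fin, Finset.powerset_univ] at this
    exact this.symm
  rw [h1]
  calc (1 + 1 / (k : ℝ)) ^ k ≤ (Real.exp (1 / k)) ^ k := by
        gcongr
        linarith [Real.add_one_le_exp (1 / (k : ℝ))]
    _ = Real.exp (k * (1 / k)) := by rw [Real.exp_nat_mul]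
    _ ≤ Real.exp 1 := by
        gcongr
        rcases Nat.eq_zero_or_pos k with rfl | hk
        · simp
        · have : (k : ℝ) ≠ 0 := by positivity
          rw [mul_one_div_cancel this]
    _ ≤ 3 := Real.exp_one_lt_three.le

end Crest.Agent.R118
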