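import Crest.Agent.R118.Psi
import Crest.Agent.R118.Moments

/-! The key inequality for the Walsh functional. -/

namespace Crest.Agent.R118

open Finset

variable {X Y : Type*} [AddCommGroup X] [Module ℝ X] [AddCommGroup Y] [Module ℝ Y]
  {B : X →ₗ[ℝ] Y →ₗ[ℝ] ℝ} {S : Set X} {T : Set Y} {k m : ℕ} {Ω : Type*} [Fintype Ω]

/-- Sets of odd cardinality. -/
def oddS (k : ℕ) : Finset (Finset (Fin k × Fin k)) := univ.filter fun Λ => Odd Λ.card

/-- Fourier coefficient of the mixture of Riesz products. -/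
noncomputable def coef (p g : Ω → ℝ) (Λ : Finset (Fin k × Fin k)) : ℝ :=
  (∑ a : Fin k → Ω, (∏ j, p (a j)) * ∏ q ∈ Λ, g (a q.1)) *
    ∑ b : Fin k → Ω, (∏ j, p (b j)) * ∏ q ∈ Λ, g (b q.2)

theorem sum_prod_weight {p : Ω → ℝ} (hp1 : ∑ ω, p ω = 1) :
    ∑ a : Fin k → Ω, ∏ j, p (a j) = 1 := by
  classical
  rw [← Fintype.piFinset_univ, ← Finset.prod_univ_sum]
  simp [hp1]

theorem abs_wsum_le {α : Type*} [Fintype α] {P h : α → ℝ} {c : ℝ} (hP : ∀ a, 0 ≤ P a)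
    (hP1 : ∑ a, P a = 1) (hh : ∀ a, |h a| ≤ c) : |∑ a, P a * h a| ≤ c := by
  calc _ ≤ ∑ a, P a * c := by
        refine (Finset.abs_sum_le_sum_abs _ _).trans (Finset.sum_le_sum fun a _ => ?_)
        rw [abs_mul, abs_of_nonneg (hP a)]
        exact mul_le_mul_of_nonneg_left (hh a) (hP a)
    _ = c := by rw [← Finset.sum_mul, hP1, one_mul]

theorem abs_coef_le {p g : Ω → ℝ} (hp0 : ∀ ω, 0 ≤ p ω) (hp1 : ∑ ω, p ω = 1) (hg : ∀ ω, |g ω| ≤ 1)
    (Λ : Finset (Fin k × Fin k)) : |coef p g Λ| ≤ 1 := by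
  rw [coef, abs_mul]
  refine mul_le_one₀ ?_ (abs_nonneg _) ?_ <;>
  exact abs_wsum_le (fun a => Finset.prod_nonneg fun j _ => hp0 _) (sum_prod_weight hp1)
    fun a => abs_prod_le_one _ fun _ => hg _

theorem coef_single {p g : Ω → ℝ} (hp1 : ∑ ω, p ω = 1) (j l : Fin k) :
    coef p g {(j, l)} = (∑ ω, p ω * g ω) ^ 2 := by
  have h : ∀ (e : Fin k × Fin k → Fin k) (q : Fin k × Fin k),
      ∑ a : Fin k → Ω, (∏ j, p (a j)) * ∏ q' ∈ {q}, g (a (e q')) = ∑ ω, p ω * g ω := by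
    intro e q
    rw [sum_prod_moments, Finset.prod_eq_single (e q)]
    · simp [Finset.filter_singleton]
    · intro i _ hi
      simp [Finset.filter_singleton, Ne.symm hi, hp1]
    · simp
  rw [coef, h Prod.fst, h Prod.snd, sq]

theorem abs_coef_prod_le {p g : Ω → ℝ} (hp1 : ∑ ω, p ω = 1)
    (hmom : ∀ a, Odd a → 3 ≤ a → |∑ ω, p ω * g ω ^ a| ≤ 1 / k) (A C : Finset (Fin k))
    (hA : Odd A.card) (hC : Odd C.card) (hA3 : 3 ≤ A.card) (hC3 : 3 ≤ C.card) :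
    |coef p g (A ×ˢ C)| ≤ (1 / (k : ℝ)) ^ A.card * (1 / (k : ℝ)) ^ C.card := by
  have h : ∀ (e : Fin k × Fin k → Fin k) (A' : Finset (Fin k)) (c : ℕ), Odd c → 3 ≤ c →
      (∀ j, ((A ×ˢ C).filter fun q => e q = j).card = if j ∈ A' then c else 0) →
      |∑ a : Fin k → Ω, (∏ j, p (a j)) * ∏ q ∈ A ×ˢ C, g (a (e q))| ≤ (1 / (k : ℝ)) ^ A'.card := by
    intro e A' c hc hc3 he
    rw [sum_prod_moments]
    have : ∀ j, ∑ ω, p ω * g ω ^ ((A ×ˢ C).filter fun q => e q = j).card =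
        if j ∈ A' then ∑ ω, p ω * g ω ^ c else 1 := by
      intro j
      rw [he]
      split_ifs <;> simp [hp1]
    simp only [this]
    rw [Finset.prod_ite_mem, Finset.univ_inter, Finset.prod_const, abs_pow]
    exact pow_le_pow_left₀ (abs_nonneg _) (hmom c hc hc3) _
  rw [coef, abs_mul]
  refine mul_le_mul (h Prod.fst A C.card hC hC3 fun j => ?_) (h Prod.snd C A.card hA hA3 fun j => ?_)
    (abs_nonneg _) (by positivity)
  · rw [Finset.filter_product_left (fun a => a = j), Finset.card_product, Finset.filter_eq']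
    split_ifs <;> simp
  · rw [Finset.filter_product_right (fun a => a = j), Finset.card_product, Finset.filter_eq']
    split_ifs <;> simp

theorem epsi_le (hS : Symm S) (hT : Symm T) {n : ℕ} {c : ℝ} (hW : Wal B S T n c)
    (hmn : n + k + k = m) (hm : 2 * k ^ 2 ≤ m)
    {f : Tup k m → X} {F : Tup k m → Y} (hf : ∀ u, f u ∈ S) (hF : ∀ v, F v ∈ T)
    {p g : Ω → ℝ} (hp0 : ∀ ω, 0 ≤ p ω) (hp1 : ∑ ω, p ω = 1) (hg : ∀ ω, |g ω| ≤ 1)
    (mask : Fin k × Fin k → Prop) [DecidablePred mask] :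
    |∑ Λ ∈ oddS k, if ∀ q ∈ Λ, mask q then coef p g Λ * TT B f F Λ else 0| ≤ 2 * c := by
  have h0 : ∀ Λ : Finset (Fin k × Fin k),
      (if ∀ q ∈ Λ, mask q then coef p g Λ * TT B f F Λ else 0) =
      ∑ a : Fin k → Ω, ∑ b : Fin k → Ω, (∏ j, p (a j)) * ((∏ j, p (b j)) *
        ((∏ q ∈ Λ, if mask q then g (a q.1) * g (b q.2) else 0) * TT B f F Λ)) := by
    intro Λ
    simp only [Finset.prod_ite_zero]
    split_ifs with h
    · rw [coef, Finset.sum_mul_sum, Finset.sum_mul]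
      refine Finset.sum_congr rfl fun a _ => ?_
      rw [Finset.sum_mul]
      refine Finset.sum_congr rfl fun b _ => ?_
      rw [Finset.prod_mul_distrib]; ring
    · simp
  have h1 : (∑ Λ ∈ oddS k, if ∀ q ∈ Λ, mask q then coef p g Λ * TT B f F Λ else 0) =
      ∑ a : Fin k → Ω, (∏ j, p (a j)) * ∑ b : Fin k → Ω, (∏ j, p (b j)) *
        ∑ Λ ∈ oddS k, (∏ q ∈ Λ, if mask q then g (a q.1) * g (b q.2) else 0) * TT B f F Λ := by
    simp only [h0, Finset.mul_sum]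
    rw [Finset.sum_comm]
    exact Finset.sum_congr rfl fun a _ => Finset.sum_comm
  rw [h1]
  refine abs_wsum_le (fun a => Finset.prod_nonneg fun j _ => hp0 _) (sum_prod_weight hp1)
    fun a => abs_wsum_le (fun a => Finset.prod_nonneg fun j _ => hp0 _) (sum_prod_weight hp1)
    fun b => psi_le hS hT hW hmn hm hf hF fun q => ?_
  split_ifs
  · rw [abs_mul]; exact mul_le_one₀ (hg _) (abs_nonneg _) (hg _)
  · simp

/-- Sets not contained in a row or a column. -/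
def Rst (Λ : Finset (Fin k × Fin k)) : Prop :=
  (¬ ∃ l, ∀ q ∈ Λ, q.2 = l) ∧ ¬ ∃ j, ∀ q ∈ Λ, q.1 = j

open Classical in
theorem decomp (h : Finset (Fin k × Fin k) → ℝ) :
    ∑ q, h {q} = (∑ l, ∑ Λ ∈ oddS k, if ∀ q ∈ Λ, q.2 = l then h Λ else 0) +
      (∑ j, ∑ Λ ∈ oddS k, if ∀ q ∈ Λ, q.1 = j then h Λ else 0) +
      (∑ Λ ∈ oddS k, if Rst Λ then h Λ else 0) - ∑ Λ ∈ oddS k, h Λ := by
  have h1 : ∑ q, h {q} = ∑ q, ∑ Λ ∈ oddS k, if Λ = {q} then h Λ else 0 := by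
    refine Finset.sum_congr rfl fun q _ => ?_
    rw [Finset.sum_ite_eq', if_pos (by simp [oddS])]
  rw [h1, Finset.sum_comm, Finset.sum_comm (t := oddS k), Finset.sum_comm (t := oddS k),
    ← Finset.sum_add_distrib, ← Finset.sum_add_distrib, ← Finset.sum_sub_distrib]
  refine Finset.sum_congr rfl fun Λ hΛ => ?_
  have hodd : Odd Λ.card := (Finset.mem_filter.1 hΛ).2
  obtain ⟨q0, hq0⟩ : Λ.Nonempty := Finset.card_pos.1 hodd.pos
  have e1 : (∑ q, if Λ = {q} then h Λ else 0) =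
      if (∀ q ∈ Λ, q.2 = q0.2) ∧ (∀ q ∈ Λ, q.1 = q0.1) then h Λ else 0 := by
    rw [Finset.sum_eq_single q0]
    · refine if_congr ⟨?_, fun hh => ?_⟩ rfl rfl
      · rintro rfl; simp
      · exact Finset.eq_singleton_iff_unique_mem.2
          ⟨hq0, fun q hq => Prod.ext (hh.2 q hq) (hh.1 q hq)⟩
    · intro q _ hq
      rw [if_neg]
      rintro rfl
      exact hq (Finset.mem_singleton.1 hq0).symm
    · simp
  have e2 : (∑ l, if ∀ q ∈ Λ, q.2 = l then h Λ else 0) =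
      if ∀ q ∈ Λ, q.2 = q0.2 then h Λ else 0 := by
    rw [Finset.sum_eq_single q0.2]
    · intro l _ hl
      exact if_neg fun hh => hl (hh q0 hq0).symm
    · simp
  have e3 : (∑ l, if ∀ q ∈ Λ, q.1 = l then h Λ else 0) =
      if ∀ q ∈ Λ, q.1 = q0.1 then h Λ else 0 := by
    rw [Finset.sum_eq_single q0.1]
    · intro l _ hl
      exact if_neg fun hh => hl (hh q0 hq0).symm
    · simp
  have e4 : Rst Λ ↔ (¬ ∀ q ∈ Λ, q.2 = q0.2) ∧ ¬ ∀ q ∈ Λ, q.1 = q0.1 := by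
    refine and_congr (not_congr ⟨?_, fun hh => ⟨_, hh⟩⟩) (not_congr ⟨?_, fun hh => ⟨_, hh⟩⟩)
    · rintro ⟨l, hl⟩ q hq; rw [hl q hq, hl q0 hq0]
    · rintro ⟨l, hl⟩ q hq; rw [hl q hq, hl q0 hq0]
  rw [e1, e2, e3]
  simp only [e4]
  by_cases c1 : ∀ q ∈ Λ, q.2 = q0.2 <;> by_cases c2 : ∀ q ∈ Λ, q.1 = q0.1
  · rw [if_pos ⟨c1, c2⟩, if_pos c1, if_pos c2, if_neg (fun hh => hh.1 c1)]; ring
  · rw [if_neg (fun hh => c2 hh.2), if_pos c1, if_neg c2, if_neg (fun hh => hh.1 c1)]; ring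
  · rw [if_neg (fun hh => c1 hh.1), if_neg c1, if_pos c2, if_neg (fun hh => hh.2 c2)]; ring
  · rw [if_neg (fun hh => c1 hh.1), if_neg c1, if_neg c2, if_pos ⟨c1, c2⟩]; ring

open Classical in
theorem rst_le (hS : Symm S) (hT : Symm T) {c1 c2 : ℝ} (h1 : Wal B S T m c1)
    (h2 : Wal B S T (m + m) c2)
    {f : Tup k m → X} {F : Tup k m → Y} (hf : ∀ u, f u ∈ S) (hF : ∀ v, F v ∈ T)
    {p g : Ω → ℝ} (hp0 : ∀ ω, 0 ≤ p ω) (hp1 : ∑ ω, p ω = 1) (hg : ∀ ω, |g ω| ≤ 1)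
    (hmom : ∀ a, Odd a → 3 ≤ a → |∑ ω, p ω * g ω ^ a| ≤ 1 / k) :
    |∑ Λ ∈ oddS k, if Rst Λ then coef p g Λ * TT B f F Λ else 0| ≤ 9 * c1 + 2 ^ (k ^ 2) * c2 := by
  have hc1 : 0 ≤ c1 := h1.nonneg (hf 0) (hF 0)
  have hc2 : 0 ≤ c2 := h2.nonneg (hf 0) (hF 0)
  let φ : Finset (Fin k × Fin k) → Finset (Fin k) × Finset (Fin k) := fun Λ =>
    (Λ.image Prod.fst, Λ.image Prod.snd)
  let w : Finset (Fin k) × Finset (Fin k) → ℝ := fun z =>
    (1 / (k : ℝ)) ^ z.1.card * (1 / (k : ℝ)) ^ z.2.card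
  have hw : ∀ z, 0 ≤ w z := fun z => by positivity
  have h3 : ∀ Λ ∈ oddS k, |if Rst Λ then coef p g Λ * TT B f F Λ else 0| ≤
      (if Λ = (φ Λ).1 ×ˢ (φ Λ).2 then w (φ Λ) else 0) * c1 + c2 := by
    intro Λ hΛ
    have hodd : Odd Λ.card := (Finset.mem_filter.1 hΛ).2
    have hne : Λ.Nonempty := Finset.card_pos.1 hodd.pos
    have h4 : 0 ≤ (if Λ = (φ Λ).1 ×ˢ (φ Λ).2 then w (φ Λ) else 0) * c1 := by
      refine mul_nonneg ?_ hc1
      split_ifs
      exacts [hw _, le_rfl]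
    by_cases hR : Rst Λ
    swap
    · rw [if_neg hR, abs_zero]; linarith
    rw [if_pos hR, abs_mul]
    by_cases hrect : Λ = (φ Λ).1 ×ˢ (φ Λ).2
    · rw [if_pos hrect]
      have hcard : Odd ((φ Λ).1.card * (φ Λ).2.card) := by
        rwa [← Finset.card_product, ← hrect]
      have hA := Nat.Odd.of_mul_left hcard
      have hC := Nat.Odd.of_mul_right hcard
      have hA1 : (φ Λ).1.card ≠ 1 := by
        intro h
        obtain ⟨j, hj⟩ := Finset.card_eq_one.1 h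
        refine hR.2 ⟨j, fun q hq => Finset.mem_singleton.1 ?_⟩
        rw [← hj]; exact Finset.mem_image_of_mem _ hq
      have hC1 : (φ Λ).2.card ≠ 1 := by
        intro h
        obtain ⟨j, hj⟩ := Finset.card_eq_one.1 h
        refine hR.1 ⟨j, fun q hq => Finset.mem_singleton.1 ?_⟩
        rw [← hj]; exact Finset.mem_image_of_mem _ hq
      have h5 := abs_coef_prod_le hp1 hmom _ _ hA hC (by obtain ⟨r, hr⟩ := hA; omega)
        (by obtain ⟨r, hr⟩ := hC; omega)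
      rw [← hrect] at h5
      have h6 := mul_le_mul h5 (TT_le_one hS hT h1 hf hF hne) (abs_nonneg _) (hw (φ Λ))
      exact h6.trans (le_add_of_nonneg_right hc2)
    · have h5 : ∃ j j' l l', (j, l) ∉ Λ ∧ (j, l') ∈ Λ ∧ (j', l) ∈ Λ := by
        by_contra hh
        push Not at hh
        refine hrect (Finset.Subset.antisymm Finset.subset_product ?_)
        rintro ⟨j, l⟩ hq
        simp only [φ, Finset.mem_product, Finset.mem_image] at hq
        obtain ⟨⟨⟨j1, l'⟩, h6, rfl⟩, ⟨⟨j', l1⟩, h7, rfl⟩⟩ := hq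
        by_contra h8
        exact hh _ j' _ l' h8 h6 h7
      obtain ⟨j, j', l, l', a1, a2, a3⟩ := h5
      have h6 := mul_le_mul (abs_coef_le hp0 hp1 hg Λ) (TT_le_two hS hT h2 hf hF a1 a2 a3)
        (abs_nonneg _) zero_le_one
      linarith
  refine (Finset.abs_sum_le_sum_abs _ _).trans ((Finset.sum_le_sum h3).trans ?_)
  rw [Finset.sum_add_distrib, ← Finset.sum_mul, Finset.sum_const, nsmul_eq_mul]
  refine add_le_add (mul_le_mul_of_nonneg_right ?_ hc1) (mul_le_mul_of_nonneg_right ?_ hc2)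
  · rw [← Finset.sum_filter, ← Finset.sum_image (g := φ) (f := w)]
    · refine (Finset.sum_le_univ_sum_of_nonneg hw).trans ?_
      rw [Fintype.sum_prod_type]
      simp only [w]
      rw [← Finset.sum_mul_sum]
      have h4 := sum_pow_card_le k
      have h5 : 0 ≤ ∑ A : Finset (Fin k), (1 / (k : ℝ)) ^ A.card := by positivity
      nlinarith
    · intro Λ hΛ Λ' hΛ' h
      rw [(Finset.mem_filter.1 hΛ).2, (Finset.mem_filter.1 hΛ').2, h]
  · have := Finset.card_le_univ (oddS k)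
    rw [Fintype.card_finset, Fintype.card_prod, Fintype.card_fin, ← sq] at this
    exact_mod_cast this

/-- The key inequality. -/
theorem key {S' : Set X} (hS' : Symm S') (hSS : S ⊆ S') (hT : Symm T) {M : ℝ} (hM : 0 ≤ M)
    (hX : ∀ z : Fin k → X, (∀ l, z l ∈ S) → ∃ f : G k → X, (∀ η, f η ∈ S') ∧
      ∀ l, z l = M • avg fun η : G k => sg (η l) • f η)
    (hY : ∀ z : Fin k → Y, (∀ l, z l ∈ T) → ∃ f : G k → Y, (∀ η, f η ∈ T) ∧
      ∀ l, z l = M • avg fun η : G k => sg (η l) • f η)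
    {p g : Ω → ℝ} (hp0 : ∀ ω, 0 ≤ p ω) (hp1 : ∑ ω, p ω = 1) (hg : ∀ ω, |g ω| ≤ 1)
    (hmom : ∀ a, Odd a → 3 ≤ a → |∑ ω, p ω * g ω ^ a| ≤ 1 / k)
    {n : ℕ} (hmn : n + k + k = m) (hm : 2 * k ^ 2 ≤ m) {c1 c2 : ℝ} (h1 : Wal B S' T n c1)
    (h2 : Wal B S' T (m + m) c2) (s : G m → X) (t : G m → Y) (hs : ∀ x, s x ∈ S)
    (ht : ∀ y, t y ∈ T) :
    (k * ∑ ω, p ω * g ω) ^ 2 * |avg fun x => avg fun y => sg (x ⬝ᵥ y) * B (s x) (t y)| ≤
      (4 * k * M + 11 * M ^ 2) * c1 + 2 ^ (k ^ 2) * M ^ 2 * c2 := by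
  classical
  choose f0 hf0 hf1 using fun x : Fin k → G m => hX (fun l => s (x l)) fun l => hs _
  choose F0 hF0 hF1 using fun x : Fin k → G m => hY (fun l => t (x l)) fun l => ht _
  set f : Tup k m → X := fun u => f0 u.1 u.2 with hf
  set F : Tup k m → Y := fun u => F0 u.1 u.2 with hF
  have hfS : ∀ u, f u ∈ S' := fun u => hf0 _ _
  have hFT : ∀ u, F u ∈ T := fun u => hF0 _ _
  set V := avg fun x => avg fun y => sg (x ⬝ᵥ y) * B (s x) (t y) with hV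
  set τ := ∑ ω, p ω * g ω with hτ
  have hcol : ∀ l (F : Tup k m → Y) (Λ : Finset (Fin k × Fin k)), (∀ q ∈ Λ, q.2 = l) →
      Odd Λ.card → M * TT B f F Λ = TT B (fun u => sg (u.2 l) • s (u.1 l)) F Λ :=
    fun l F Λ h hodd => TT_col h hodd f F (fun x => s (x l)) M fun x => hf1 x l
  have hrow : ∀ j (f : Tup k m → X) (Λ : Finset (Fin k × Fin k)), (∀ q ∈ Λ, q.1 = j) →
      Odd Λ.card → M * TT B f F Λ = TT B f (fun u => sg (u.2 j) • t (u.1 j)) Λ :=
    fun j f Λ h hodd => TT_row h hodd f F (fun x => t (x j)) M fun x => hF1 x j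
  have d := decomp fun Λ => M ^ 2 * (coef p g Λ * TT B f F Λ)
  have e1 : ∑ q, M ^ 2 * (coef p g {q} * TT B f F {q}) = (k * τ) ^ 2 * V := by
    have : ∀ q : Fin k × Fin k, M ^ 2 * (coef p g {q} * TT B f F {q}) = τ ^ 2 * V := by
      rintro ⟨j, l⟩
      rw [coef_single hp1, hV, ← TT_single s t j l, ← hrow j _ _ (by simp) (by simp),
        ← hcol l _ _ (by simp) (by simp)]
      ring
    simp only [this, Finset.sum_const, Finset.card_univ, Fintype.card_prod, Fintype.card_fin,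
      nsmul_eq_mul, Nat.cast_mul]
    ring
  have e2 : ∀ l, |∑ Λ ∈ oddS k, if ∀ q ∈ Λ, q.2 = l then M ^ 2 * (coef p g Λ * TT B f F Λ)
      else 0| ≤ M * (2 * c1) := by
    intro l
    have := epsi_le hS' hT h1 hmn hm (f := fun u => sg (u.2 l) • s (u.1 l))
      (fun u => hS'.sg_smul (sg_cases _) (hSS (hs _))) hFT hp0 hp1 hg fun q => q.2 = l
    refine le_trans (le_of_eq ?_) (mul_le_mul_of_nonneg_left this hM)
    rw [← abs_of_nonneg hM, ← abs_mul, abs_of_nonneg hM, Finset.mul_sum]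
    congr 1
    refine Finset.sum_congr rfl fun Λ hΛ => ?_
    split_ifs with h
    · rw [← hcol l F Λ h (Finset.mem_filter.1 hΛ).2]; ring
    · simp
  have e3 : ∀ j, |∑ Λ ∈ oddS k, if ∀ q ∈ Λ, q.1 = j then M ^ 2 * (coef p g Λ * TT B f F Λ)
      else 0| ≤ M * (2 * c1) := by
    intro j
    have := epsi_le hS' hT h1 hmn hm hfS (F := fun u => sg (u.2 j) • t (u.1 j))
      (fun u => hT.sg_smul (sg_cases _) (ht _)) hp0 hp1 hg fun q => q.1 = j
    refine le_trans (le_of_eq ?_) (mul_le_mul_of_nonneg_left this hM)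
    rw [← abs_of_nonneg hM, ← abs_mul, abs_of_nonneg hM, Finset.mul_sum]
    congr 1
    refine Finset.sum_congr rfl fun Λ hΛ => ?_
    split_ifs with h
    · rw [← hrow j f Λ h (Finset.mem_filter.1 hΛ).2]; ring
    · simp
  have e4 : |∑ Λ ∈ oddS k, if Rst Λ then M ^ 2 * (coef p g Λ * TT B f F Λ) else 0| ≤
      M ^ 2 * (9 * c1 + 2 ^ (k ^ 2) * c2) := by
    have := rst_le hS' hT (h1.mono_dim hS' hT (by omega)) h2 hfS hFT hp0 hp1 hg hmom
    refine le_trans (le_of_eq ?_) (mul_le_mul_of_nonneg_left this (sq_nonneg M))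
    rw [← abs_of_nonneg (sq_nonneg M), ← abs_mul, abs_of_nonneg (sq_nonneg M), Finset.mul_sum]
    congr 1
    refine Finset.sum_congr rfl fun Λ hΛ => ?_
    split_ifs <;> simp
  have e5 : |∑ Λ ∈ oddS k, M ^ 2 * (coef p g Λ * TT B f F Λ)| ≤ M ^ 2 * (2 * c1) := by
    have := epsi_le hS' hT h1 hmn hm hfS hFT hp0 hp1 hg fun _ => True
    refine le_trans (le_of_eq ?_) (mul_le_mul_of_nonneg_left this (sq_nonneg M))
    rw [← abs_of_nonneg (sq_nonneg M), ← abs_mul, abs_of_nonneg (sq_nonneg M), Finset.mul_sum]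
    simp
  have e6 := (Finset.abs_sum_le_sum_abs _ _).trans (Finset.sum_le_sum (s := univ) fun l _ => e2 l)
  have e7 := (Finset.abs_sum_le_sum_abs _ _).trans (Finset.sum_le_sum (s := univ) fun l _ => e3 l)
  simp only [Finset.sum_const, Finset.card_univ, Fintype.card_fin, nsmul_eq_mul] at e6 e7
  rw [← abs_of_nonneg (sq_nonneg (k * τ)), ← abs_mul, ← e1, d]
  rw [abs_le] at e4 e5 e6 e7 ⊢
  constructor <;> linarith [e4.1, e4.2, e5.1, e5.2, e6.1, e6.2, e7.1, e7.2]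

end Crest.Agent.R118
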