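import Crest.Agent.R118.Kato
import Crest.Prelude.Def_Rademacher

/-! From the `L₂` Walsh inequality to K-convexity (Pisier's step). -/

namespace Crest.Agent.R118

open Finset

section mult

variable {s n : ℕ} {A : Type*} [NormedRing A] [NormedAlgebra ℝ A]

/-- Walsh multipliers. -/
noncomputable def mPhi (τ : G s → A) : (G s → ℝ) →ₗ[ℝ] A where
  toFun m := ∑ η, (avg fun a => m a * sg (a ⬝ᵥ η)) • τ η
  map_add' m m' := by
    simp only [Pi.add_apply, add_mul, avg_add, add_smul, sum_add_distrib]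
  map_smul' c m := by
    simp only [Pi.smul_apply, smul_eq_mul, mul_assoc, avg_mul_left, mul_smul, RingHom.id_apply,
      smul_sum]

/-- Characters. -/
def mchi (b : G s) : G s → ℝ := fun a => sg (a ⬝ᵥ b)

/-- Product multipliers. -/
def mpr (γ : Fin s → ℝ) : G s → ℝ := fun a => ∏ i, if a i = 0 then 1 else γ i

/-- The degree. -/
def mdeg (a : G s) : ℕ := #{i | ¬ a i = 0}

/-- The hypotheses on the representation. -/
structure MRep (τ : G s → A) (n : ℕ) : Prop where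
  add : ∀ η η', τ (η + η') = τ η * τ η'
  le : ∀ η, ‖τ η‖ ≤ 1
  wal : ∀ p : G n → A, (∀ S, ‖p S‖ ≤ 1) →
    ‖avg fun T => avg fun S => sg (S ⬝ᵥ T) • (p T * p S)‖ ≤ 1 / 2

variable {τ : G s → A}

theorem mPhi_apply (m : G s → ℝ) :
    mPhi τ m = ∑ η, (avg fun a => m a * sg (a ⬝ᵥ η)) • τ η := rfl

theorem mPhi_chi (b : G s) : mPhi τ (mchi b) = τ b := by
  have h : ∀ η : G s, (avg fun a => mchi b a * sg (a ⬝ᵥ η)) = if η = b then 1 else 0 := fun η => by
    simp only [mchi, ← sg_add, ← dotProduct_add]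
    rw [avg_sg_dot]
    exact if_congr ((G_add_eq_zero _ _).trans eq_comm) rfl rfl
  simp [mPhi_apply, h]

theorem mchi_mul (b b' : G s) : mchi b * mchi b' = mchi (b + b') := by
  funext a
  simp only [mchi, Pi.mul_apply, dotProduct_add, sg_add]

theorem m_inversion (m : G s → ℝ) :
    m = ∑ η, (avg fun a => m a * sg (a ⬝ᵥ η)) • mchi η := by
  funext x
  have hc : (2 : ℝ) ^ s ≠ 0 := by positivity
  have h2 : ∀ a : G s, ∑ η : G s, m a * sg (a ⬝ᵥ η) * sg (x ⬝ᵥ η) =
      if a = x then 2 ^ s * m x else 0 := by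
    intro a
    have h3 := avg_sg_dot (a + x)
    rw [avg, card_G, smul_eq_mul, inv_mul_eq_iff_eq_mul₀ hc] at h3
    simp only [mul_assoc, ← sg_add, ← add_dotProduct, dotProduct_comm (a + x)]
    rw [← mul_sum, h3]
    by_cases h : a = x
    · simp [h, G_add_self, mul_comm]
    · simp [h, G_add_eq_zero]
  simp only [Finset.sum_apply, Pi.smul_apply, smul_eq_mul, mchi, ← avg_mul_right]
  rw [← avg_sum]
  simp only [h2]
  rw [avg_ite, card_G, smul_eq_mul]
  field_simp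

theorem MRep.mul (h : MRep τ n) (m m' : G s → ℝ) : mPhi τ (m * m') = mPhi τ m * mPhi τ m' := by
  conv_lhs => rw [m_inversion m, m_inversion m']
  rw [mPhi_apply m, mPhi_apply m', sum_mul_sum, sum_mul_sum]
  simp only [map_sum, smul_mul_smul_comm, map_smul, mchi_mul, mPhi_chi, h.add]

theorem m_sum_z2 {M : Type*} [AddCommMonoid M] (f : ZMod 2 → M) : ∑ z, f z = f 0 + f 1 :=
  Fin.sum_univ_two f

theorem mpr_eq (γ : Fin s → ℝ) :
    mpr γ = ∑ η : G s, (∏ i, (1 + γ i * sg (η i)) / 2) • mchi η := by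
  funext a
  simp only [Finset.sum_apply, Pi.smul_apply, smul_eq_mul, mchi, dotProduct, sg_sum,
    ← prod_mul_distrib]
  rw [← Fintype.piFinset_univ,
    ← prod_univ_sum (fun _ => univ) fun i z => (1 + γ i * sg z) / 2 * sg (a i * z)]
  refine prod_congr rfl fun i _ => ?_
  rw [m_sum_z2]
  rcases z2_cases (a i) with h | h
  · simp [h]
    ring
  · simp [h]
    ring

theorem MRep.norm_mpr (hτ : MRep τ n) {γ : Fin s → ℝ} (h : ∀ i, |γ i| ≤ 1) :
    ‖mPhi τ (mpr γ)‖ ≤ 1 := by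
  have h0 : ∀ η : G s, 0 ≤ ∏ i, (1 + γ i * sg (η i)) / 2 := fun η => prod_nonneg fun i _ => by
    have := abs_le.1 (h i)
    rcases sg_cases (η i) with e | e <;> rw [e] <;> linarith
  have h1 : ∑ η : G s, ∏ i, (1 + γ i * sg (η i)) / 2 = 1 := by
    simpa [mpr, mchi] using (congrFun (mpr_eq γ) 0).symm
  rw [mpr_eq, map_sum]
  refine (norm_sum_le _ _).trans ((sum_le_sum fun η _ => ?_).trans h1.le)
  rw [map_smul, mPhi_chi, norm_smul, Real.norm_of_nonneg (h0 η)]
  exact mul_le_of_le_one_right (h0 η) (hτ.le η)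

theorem mpr_const (ρ : ℝ) (a : G s) : mpr (fun _ => ρ) a = ρ ^ mdeg a := by
  simp [mpr, mdeg, prod_ite]

theorem m_avg_pi (f : Fin n → ZMod 2 → ℝ) :
    (avg fun S : G n => ∏ j, f j (S j)) = ∏ j, (f j 0 + f j 1) / 2 := by
  rw [avg, card_G, ← Fintype.piFinset_univ, ← prod_univ_sum (fun _ => univ) f, prod_div_distrib]
  simp only [m_sum_z2, prod_const, card_univ, Fintype.card_fin, smul_eq_mul]
  rw [div_eq_inv_mul]

theorem m_ident (e : Fin n → ℝ) (he : ∀ j, e j * e j = e j) :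
    ∏ j, (1 - 3 * e j) / 4 = avg fun T : G n => avg fun S : G n => sg (S ⬝ᵥ T) *
      ((∏ j, if T j = 0 then 1 else -e j) * ∏ j, if S j = 0 then 1 else -e j) := by
  simp only [dotProduct, sg_sum, ← prod_mul_distrib]
  rw [avg_congr fun T : G n => m_avg_pi fun j z => sg (z * T j) *
      ((if T j = 0 then 1 else -e j) * if z = 0 then 1 else -e j),
    m_avg_pi fun j w => (sg (0 * w) * ((if w = 0 then 1 else -e j) *
      if (0 : ZMod 2) = 0 then 1 else -e j) + sg (1 * w) * ((if w = 0 then 1 else -e j) *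
        if (1 : ZMod 2) = 0 then 1 else -e j)) / 2]
  refine prod_congr rfl fun j _ => ?_
  simp [he j]
  ring

theorem m_prod_mpr (γ : Fin n → Fin s → ℝ) (S : G n) (a : G s) :
    (∏ j, if S j = 0 then 1 else -mpr (γ j) a) =
      (∏ j, sg (S j)) * mpr (fun i => ∏ j, if S j = 0 then 1 else γ j i) a := by
  have h1 : mpr (fun i => ∏ j, if S j = 0 then 1 else γ j i) a =
      ∏ j, if S j = 0 then 1 else mpr (γ j) a := by
    have h2 : ∀ i, (if a i = 0 then 1 else ∏ j, if S j = 0 then 1 else γ j i) =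
        ∏ j, if S j = 0 then 1 else if a i = 0 then 1 else γ j i := fun i => by
      split_ifs <;> simp
    simp only [mpr, h2]
    rw [prod_comm]
    refine prod_congr rfl fun j _ => ?_
    split_ifs <;> simp
  rw [h1, ← prod_mul_distrib]
  refine prod_congr rfl fun j _ => ?_
  rw [sg]
  split_ifs <;> simp

theorem MRep.half (hτ : MRep τ n) (β : Fin n → Fin s → Bool) :
    ‖mPhi τ fun a => ∏ j, (1 - 3 * mpr (fun i => if β j i then 1 else 0) a) / 4‖ ≤ 1 / 2 := by
  set γ : Fin n → Fin s → ℝ := fun j i => if β j i then 1 else 0 with hγ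
  set q : G n → G s → ℝ := fun S a => ∏ j, if S j = 0 then 1 else -mpr (γ j) a with hq
  have h1 : ∀ S, ‖mPhi τ (q S)‖ ≤ 1 := fun S => by
    have e : q S = (∏ j, sg (S j)) • mpr fun i => ∏ j, if S j = 0 then 1 else γ j i :=
      funext fun a => m_prod_mpr γ S a
    rw [e, map_smul, norm_smul, Real.norm_eq_abs, abs_prod]
    simp only [abs_sg, prod_const_one, one_mul]
    refine hτ.norm_mpr fun i => ?_
    rw [abs_prod]
    refine prod_le_one (fun _ _ => abs_nonneg _) fun j _ => ?_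
    simp only [hγ]
    split_ifs <;> simp
  have h2 : (fun a => ∏ j, (1 - 3 * mpr (γ j) a) / 4) =
      avg fun T : G n => avg fun S : G n => sg (S ⬝ᵥ T) • (q T * q S) := by
    funext a
    rw [m_ident (fun j => mpr (γ j) a) fun j => by
      rw [mpr, ← prod_mul_distrib]
      refine prod_congr rfl fun i _ => ?_
      simp only [hγ]
      split_ifs <;> simp]
    simp [avg, hq]
  rw [h2]
  simp only [map_avg, map_smul, hτ.mul]
  exact hτ.wal _ h1

theorem m_rand (ρ : ℝ) (a : G s) : ∑ β : Fin s → Bool, (∏ i, if β i then ρ else 1 - ρ) *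
    ((1 - 3 * mpr (fun i => if β i then 1 else 0) a) / 4) = (1 - 3 * ρ ^ mdeg a) / 4 := by
  have h : ∀ a : G s, ∑ β : Fin s → Bool, (∏ i, if β i then ρ else 1 - ρ) *
      mpr (fun i => if β i then 1 else 0) a = ρ ^ mdeg a := fun a => by
    simp only [mpr, ← prod_mul_distrib]
    rw [← Fintype.piFinset_univ, ← prod_univ_sum (fun _ => univ) fun i (b : Bool) =>
      (if b then ρ else 1 - ρ) * if a i = 0 then 1 else if b then 1 else 0, ← mpr_const, mpr]
    refine prod_congr rfl fun i _ => ?_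
    split_ifs <;> simp
  have h0 := h 0
  simp only [mpr, Pi.zero_apply, if_true, prod_const_one, mul_one, mdeg, not_true, filter_false,
    card_empty, pow_zero] at h0
  simp only [← mul_div_assoc, mul_sub, mul_left_comm _ (3 : ℝ), mul_one]
  rw [← sum_div, sum_sub_distrib, ← mul_sum, h a, h0]

theorem MRep.half' (hτ : MRep τ n) {ρ : ℝ} (h0 : 0 ≤ ρ) (h1 : ρ ≤ 1) :
    ‖mPhi τ ((fun a => (1 - 3 * ρ ^ mdeg a) / 4) ^ n)‖ ≤ 1 / 2 := by
  set w : (Fin s → Bool) → ℝ := fun β => ∏ i, if β i then ρ else 1 - ρ with hw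
  have hw0 : ∀ β, 0 ≤ w β := fun β => prod_nonneg fun i _ => by split_ifs <;> linarith
  have hw1 : ∑ β, w β = 1 := by
    rw [hw, ← Fintype.piFinset_univ, ← prod_univ_sum (fun _ => univ) fun (_ : Fin s) (b : Bool) =>
      if b then ρ else 1 - ρ]
    simp
  have hw2 : ∑ β : Fin n → Fin s → Bool, ∏ j, w (β j) = 1 := by
    rw [← Fintype.piFinset_univ, ← prod_univ_sum (fun _ => univ) fun (_ : Fin n) β => w β]
    simp [hw1]
  have e : ((fun a : G s => (1 - 3 * ρ ^ mdeg a) / 4) ^ n) = ∑ β : Fin n → Fin s → Bool,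
      (∏ j, w (β j)) • fun a => ∏ j, (1 - 3 * mpr (fun i => if β j i then 1 else 0) a) / 4 := by
    funext a
    simp only [Pi.pow_apply, Finset.sum_apply, Pi.smul_apply, smul_eq_mul, ← prod_mul_distrib]
    rw [← Fintype.piFinset_univ, ← prod_univ_sum (fun _ => univ) fun (_ : Fin n) β =>
      w β * ((1 - 3 * mpr (fun i => if β i then 1 else 0) a) / 4)]
    simp only [hw, m_rand, prod_const, card_univ, Fintype.card_fin]
  have e2 : ∑ β : Fin n → Fin s → Bool, (∏ j, w (β j)) * (1 / 2) = 1 / 2 := by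
    rw [← sum_mul, hw2, one_mul]
  rw [e, map_sum]
  refine (norm_sum_le _ _).trans ((sum_le_sum fun β _ => ?_).trans e2.le)
  have h2 : 0 ≤ ∏ j, w (β j) := prod_nonneg fun j _ => hw0 _
  rw [map_smul, norm_smul, Real.norm_of_nonneg h2]
  exact mul_le_mul_of_nonneg_left (hτ.half β) h2

theorem MRep.pow (hτ : MRep τ n) (ρ : ℝ) (h : |ρ| ≤ 1) : ‖mPhi τ fun a => ρ ^ mdeg a‖ ≤ 1 := by
  simp only [← mpr_const]
  exact hτ.norm_mpr fun _ => h

theorem MRep.res (hτ : MRep τ n) {ρ : ℝ} (h0 : 0 ≤ ρ) (h1 : ρ ≤ 1) :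
    ‖mPhi τ fun a => 1 / (1 + ρ ^ mdeg a)‖ ≤ 2 * n + 1 := by
  set Q : G s → ℝ := fun a => (1 - 3 * ρ ^ mdeg a) / 4 with hQ
  set g : G s → ℝ := fun a => 1 / (1 + ρ ^ mdeg a) with hg
  have hone : ‖mPhi τ 1‖ ≤ 1 := by
    have := hτ.pow 1 (by simp)
    simp only [one_pow] at this
    exact this
  have hQ1 : ‖mPhi τ Q‖ ≤ 1 := by
    have e : Q = (1 / 4 : ℝ) • (1 : G s → ℝ) - (3 / 4 : ℝ) • fun a => ρ ^ mdeg a := by
      funext a
      simp only [hQ, Pi.sub_apply, Pi.smul_apply, Pi.one_apply, smul_eq_mul]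
      ring
    have h2 := hτ.pow ρ (by rw [abs_of_nonneg h0]; exact h1)
    rw [e, map_sub, map_smul, map_smul]
    refine (norm_sub_le _ _).trans ?_
    rw [norm_smul, norm_smul, Real.norm_of_nonneg (by norm_num), Real.norm_of_nonneg (by norm_num)]
    linarith
  have hQi : ∀ i : ℕ, ‖mPhi τ (Q ^ i)‖ ≤ 1 := fun i => by
    induction i with
    | zero => rwa [pow_zero]
    | succ i ih =>
      rw [pow_succ, hτ.mul]
      exact (norm_mul_le _ _).trans (mul_le_one₀ ih (norm_nonneg _) hQ1)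
  have e : g = Q ^ n * g + (3 / 4 : ℝ) • ∑ i ∈ range n, Q ^ i := by
    funext a
    have h2 : 0 < 1 + ρ ^ mdeg a := by positivity
    have h3 := mul_neg_geom_sum (Q a) n
    have h4 : g a * (1 - Q a) = 3 / 4 := by
      simp only [hg, hQ]
      field_simp
      ring
    simp only [Pi.add_apply, Pi.mul_apply, Pi.pow_apply, Pi.smul_apply, Finset.sum_apply,
      smul_eq_mul]
    rw [← h4, mul_assoc, h3]
    ring
  have h5 : ‖mPhi τ (∑ i ∈ range n, Q ^ i)‖ ≤ n := by
    rw [map_sum]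
    refine (norm_sum_le _ _).trans ((sum_le_sum fun i _ => hQi i).trans ?_)
    simp
  have h6 : ‖mPhi τ g‖ ≤ 1 / 2 * ‖mPhi τ g‖ + 3 / 4 * n := by
    conv_lhs => rw [e, map_add, hτ.mul, map_smul]
    refine (norm_add_le _ _).trans (add_le_add ((norm_mul_le _ _).trans
      (mul_le_mul_of_nonneg_right (hτ.half' h0 h1) (norm_nonneg _))) ?_)
    rw [norm_smul, Real.norm_of_nonneg (by norm_num)]
    linarith
  have h7 : (0 : ℝ) ≤ n := Nat.cast_nonneg n
  linarith

theorem m_deg_one (a : G s) :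
    (if mdeg a = 1 then 1 else 0 : ℝ) = ∑ i, if a = Pi.single i 1 then 1 else 0 := by
  split_ifs with h
  · obtain ⟨i, hi⟩ := card_eq_one.1 h
    have h1 : ∀ j, ¬ a j = 0 ↔ j = i := fun j => by
      rw [← mem_singleton (a := i), ← hi, mem_filter_univ]
    have h2 : a = Pi.single i 1 := by
      funext j
      by_cases hj : j = i
      · rw [hj, Pi.single_eq_same]
        exact (z2_cases _).resolve_left ((h1 i).2 rfl)
      · rw [Pi.single_eq_of_ne hj]
        exact not_not.1 fun h => hj ((h1 j).1 h)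
    rw [sum_eq_single i (fun j _ hj => if_neg fun h => ?_) (by simp), if_pos h2]
    refine hj ((h1 j).1 ?_)
    rw [h, Pi.single_eq_same]
    exact one_ne_zero
  · refine (sum_eq_zero fun i _ => if_neg fun h1 => h (card_eq_one.2 ⟨i, ?_⟩)).symm
    ext j
    rw [mem_filter_univ, mem_singleton, h1, Pi.single_apply]
    split_ifs with hj <;> simp [hj]

theorem mPhi_deg_one : mPhi τ (fun a => if mdeg a = 1 then 1 else 0) =
    ∑ η : G s, (∑ i, ((2 : ℝ) ^ s)⁻¹ * sg (η i)) • τ η := by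
  rw [mPhi_apply]
  refine sum_congr rfl fun η _ => ?_
  congr 1
  simp only [m_deg_one, sum_mul, avg_sum]
  refine sum_congr rfl fun i _ => ?_
  rw [← card_G, ← smul_eq_mul, ← avg_ite (Pi.single i 1 : G s)]
  refine avg_congr fun a => ?_
  split_ifs with h <;> simp [h]

theorem MRep.proj [CompleteSpace A] (hτ : MRep τ n) :
    ‖∑ η : G s, (∑ i, ((2 : ℝ) ^ s)⁻¹ * sg (η i)) • τ η‖ ≤ katoC (2 * n + 1) := by
  have hexp : ∀ (t : ℝ) (a : G s), Real.exp (-(t * mdeg a)) = Real.exp (-t) ^ mdeg a :=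
    fun t a => by rw [← Real.exp_nat_mul, mul_neg, mul_comm]
  rw [← mPhi_deg_one]
  refine kato mdeg (mPhi τ) hτ.mul (by linarith [Nat.cast_nonneg (α := ℝ) n]) (fun t ht => ?_)
    fun t ht => ?_
  · simp only [hexp]
    refine hτ.pow _ ?_
    rw [abs_of_pos (Real.exp_pos _)]
    exact Real.exp_le_one_iff.2 (neg_nonpos.2 ht)
  · simp only [hexp]
    exact hτ.res (Real.exp_pos _).le (Real.exp_le_one_iff.2 (neg_nonpos.2 ht.le))

theorem m_walsh_op {E : Type*} [NormedAddCommGroup E] [NormedSpace ℝ E] (hW : ∀ u : G n → E,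
      avg (fun y : G n => ‖avg fun x : G n => sg (x ⬝ᵥ y) • u x‖ ^ 2) ≤
        (1 / 4) * avg fun x => ‖u x‖ ^ 2) (p : G n → E →L[ℝ] E) (hp : ∀ S, ‖p S‖ ≤ 1) :
    ‖avg fun T => avg fun S => sg (S ⬝ᵥ T) • (p T * p S)‖ ≤ 1 / 2 := by
  refine ContinuousLinearMap.opNorm_le_bound _ (by norm_num) fun F => ?_
  have hp' : ∀ S (v : E), ‖p S v‖ ≤ ‖v‖ := fun S v =>
    ((p S).le_opNorm v).trans (mul_le_of_le_one_left (norm_nonneg _) (hp S))
  have e : (avg fun T => avg fun S => sg (S ⬝ᵥ T) • (p T * p S)) F =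
      avg fun T => p T (avg fun S => sg (S ⬝ᵥ T) • p S F) := by
    simp [avg]
  have h1 := hW fun S => p S F
  have h2 : (avg fun S => ‖p S F‖ ^ 2) ≤ ‖F‖ ^ 2 :=
    avg_le_of_le fun S => pow_le_pow_left₀ (norm_nonneg _) (hp' S F) 2
  have h3 := sq_avg_le fun T : G n => ‖avg fun S => sg (S ⬝ᵥ T) • p S F‖
  rw [e]
  refine ((norm_avg_le _).trans (avg_mono fun T => hp' T _)).trans
    (abs_le_of_sq_le_sq' ?_ (by positivity)).2
  linarith

theorem m_proj_op {E : Type*} [NormedAddCommGroup E] [NormedSpace ℝ E] [CompleteSpace E]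
    (hW : ∀ u : G n → E, avg (fun y : G n => ‖avg fun x : G n => sg (x ⬝ᵥ y) • u x‖ ^ 2) ≤
        (1 / 4) * avg fun x => ‖u x‖ ^ 2) (τ : G s → E →ₗᵢ[ℝ] E)
    (hτ : ∀ η η' F, τ (η + η') F = τ η (τ η' F)) (F : E) :
    ‖∑ η : G s, (∑ i, ((2 : ℝ) ^ s)⁻¹ * sg (η i)) • τ η F‖ ≤ katoC (2 * n + 1) * ‖F‖ := by
  have h : MRep (fun η => (τ η).toContinuousLinearMap) n :=
    ⟨fun η η' => ContinuousLinearMap.ext (hτ η η'),
      fun η => LinearIsometry.norm_toContinuousLinearMap_le _, m_walsh_op hW⟩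
  have h1 := (ContinuousLinearMap.le_opNorm _ F).trans
    (mul_le_mul_of_nonneg_right h.proj (norm_nonneg F))
  simpa only [_root_.sum_apply, smul_apply, LinearIsometry.coe_toContinuousLinearMap] using h1

/-- `L₂(F_2^s; X)` with counting measure. -/
abbrev ME (X : Type*) (s : ℕ) := PiLp 2 fun _ : G s => X

variable {X : Type*} [NormedAddCommGroup X] [NormedSpace ℝ X]

theorem m_avg_apply {α : Type*} [Fintype α] (u : α → ME X s) (x : G s) :
    avg u x = avg fun a => u a x := by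
  simp [avg]

theorem m_walsh (hW : ∀ u : G n → X,
      avg (fun y : G n => ‖avg fun x : G n => sg (x ⬝ᵥ y) • u x‖ ^ 2) ≤
        (1 / 4) * avg fun x => ‖u x‖ ^ 2) (u : G n → ME X s) :
    avg (fun y : G n => ‖avg fun x : G n => sg (x ⬝ᵥ y) • u x‖ ^ 2) ≤
      (1 / 4) * avg fun x => ‖u x‖ ^ 2 := by
  simp only [PiLp.norm_sq_eq_of_L2, avg_sum, mul_sum, m_avg_apply]
  exact sum_le_sum fun z _ => hW fun x => u x z

theorem m_shift (F : G s → X) (x : G s) :
    ∑ η : G s, (∑ i, ((2 : ℝ) ^ s)⁻¹ * sg (η i)) • F (x + η) =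
      ∑ i, sg (x i) • ((2 : ℝ) ^ s)⁻¹ • ∑ η : G s, sg (η i) • F η := by
  simp only [sum_smul]
  rw [sum_comm]
  refine sum_congr rfl fun i _ => ?_
  rw [← Equiv.sum_comp (Equiv.addLeft x) fun η => sg (η i) • F η, smul_sum, smul_sum]
  refine sum_congr rfl fun η _ => ?_
  simp only [Equiv.coe_addLeft, Pi.add_apply, sg_add, smul_smul]
  congr 1
  linear_combination (-((2 : ℝ) ^ s)⁻¹ * sg (η i)) * sg_mul_self (x i)

theorem m_final [CompleteSpace X] (hW : ∀ u : G n → X,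
      avg (fun y : G n => ‖avg fun x : G n => sg (x ⬝ᵥ y) • u x‖ ^ 2) ≤
        (1 / 4) * avg fun x => ‖u x‖ ^ 2) (F : G s → X) :
    ∑ x : G s, ‖∑ i, sg (x i) • ((2 : ℝ) ^ s)⁻¹ • ∑ η : G s, sg (η i) • F η‖ ^ 2 ≤
      katoC (2 * n + 1) ^ 2 * ∑ x, ‖F x‖ ^ 2 := by
  have h1 := pow_le_pow_left₀ (norm_nonneg _) (m_proj_op (E := ME X s) (m_walsh hW)
    (fun η => (LinearIsometryEquiv.piLpCongrLeft 2 ℝ X (Equiv.addRight η).symm).toLinearIsometry)
    (fun η η' F => by
      ext x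
      change F (x + (η + η')) = F (x + η + η')
      rw [add_assoc]) (WithLp.toLp 2 F)) 2
  rw [mul_pow, PiLp.norm_sq_eq_of_L2, PiLp.norm_sq_eq_of_L2] at h1
  simp only [WithLp.ofLp_sum, Finset.sum_apply, PiLp.smul_apply] at h1
  simp only [← m_shift]
  exact h1

theorem m_sum_bool {M : Type*} [AddCommMonoid M] (g : (Fin s → Bool) → M) :
    ∑ ε, g ε = ∑ η : G s, g fun i => decide (η i = 0) := by
  have h : Function.Bijective fun z : ZMod 2 => decide (z = 0) := by decide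
  exact (h.comp_left.sum_comp g).symm

theorem m_signVal (z : ZMod 2) : Crest.AnalysisR.signVal (decide (z = 0)) = sg z := by
  simp [Crest.AnalysisR.signVal, sg]

end mult

/-- Fix `s`; `E = PiLp 2 (fun _ : G s => X)`, `τ η : E →L[ℝ] E` translation by `η` (an isometry),
`Φ m = ∑ η, (avg fun a => m a * sg (a ⬝ᵥ η)) • τ η` for `m : G s → ℝ` (Walsh multipliers),
`deg a = #{i | a i = 1}`.
* `Φ (fun a => sg (a ⬝ᵥ b)) = τ b` (`avg_sg_dot`), Fourier inversion `m = ∑ η, m̌ η • sg (· ⬝ᵥ η)`, so `Φ` is multiplicative.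
* for `γ : Fin s → ℝ`, `|γ i| ≤ 1`: `m_γ a = ∏ i, (if a i = 0 then 1 else γ i) = ∑ η, P η * sg (a ⬝ᵥ η)` with
`P η = ∏ i, (1 + γ i * sg (η i)) / 2 ≥ 0`, `∑ P = 1`; so `‖Φ m_γ‖ ≤ 1`.
* for 0/1-valued multipliers `e j` (`j : Fin n`) of that form (`γ ∈ {0,1}`), `e_S = ∏ j with S j = 1, e j` is again of
that form and `∏ j, (1 - 3 e j)/4 = avg_S avg_T (-1)^{|S|+|T|+S·T} e_S e_T` pointwise, so by `hW` applied at each
point of the cube `‖Φ (∏ j, (1 - 3 e j)/4)‖ ≤ 1/2`.
* averaging over independent random `γ^{(j)} ∈ {0,1}^s` (each coordinate `1` with probability `ρ`):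
`‖Φ (Q ^ n)‖ ≤ 1/2` for `Q a = (1 - 3 ρ^{deg a})/4`; with `g = 1/(1+ρ^deg)`, `g = Q^n g + (3/4) ∑_{i<n} Q^i`, so
`‖Φ g‖ ≤ 2 n + 1`; `kato` bounds `Φ 1_{deg = 1}`, which is the Rademacher projection. -/
theorem isKConvex_of_walsh {X : Type*} [NormedAddCommGroup X] [NormedSpace ℝ X] [CompleteSpace X]
    (n : ℕ) (hW : ∀ s : G n → X,
      avg (fun y : G n => ‖avg fun x : G n => sg (x ⬝ᵥ y) • s x‖ ^ 2) ≤
        (1 / 4) * avg fun x => ‖s x‖ ^ 2) :
    Crest.AnalysisR.IsKConvex X := by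
  refine ⟨katoC (2 * n + 1), fun s f => ?_⟩
  have h1 := m_final hW fun η : G s => f fun i => decide (η i = 0)
  simp only [Crest.AnalysisR.signAverage, Real.rpow_two, m_sum_bool, m_signVal]
  rw [mul_left_comm]
  exact mul_le_mul_of_nonneg_left h1 (by positivity)

end Crest.Agent.R118
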