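import Crest.Agent.R118.Shift

/-! The character sums `TT` and the Riesz product functional `Psi`. -/

namespace Crest.Agent.R118

open Finset

/-- Tuples of points together with a sign vector. -/
abbrev Tup (k m : ℕ) := (Fin k → G m) × G k

/-- The exponent of the random sign matrix. -/
def wz {k m : ℕ} (u v : Tup k m) (p : Fin k × Fin k) : ZMod 2 :=
  v.2 p.1 + u.2 p.2 + u.1 p.2 ⬝ᵥ v.1 p.1

variable {X Y : Type*} [AddCommGroup X] [Module ℝ X] [AddCommGroup Y] [Module ℝ Y]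

/-- The average of the character `W^Λ` against `B (f u) (F v)`. -/
noncomputable def TT (B : X →ₗ[ℝ] Y →ₗ[ℝ] ℝ) {k m : ℕ} (f : Tup k m → X) (F : Tup k m → Y)
    (Λ : Finset (Fin k × Fin k)) : ℝ :=
  avg fun u => avg fun v => (∏ p ∈ Λ, sg (wz u v p)) * B (f u) (F v)

variable {B : X →ₗ[ℝ] Y →ₗ[ℝ] ℝ} {S : Set X} {T : Set Y} {k m : ℕ}

theorem TT_le (hS : Symm S) (hT : Symm T) {n : ℕ} {c : ℝ} (hW : Wal B S T n c)
    {f : Tup k m → X} {F : Tup k m → Y} (hf : ∀ u, f u ∈ S) (hF : ∀ v, F v ∈ T)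
    (Λ : Finset (Fin k × Fin k)) (i j : G n → Fin k → G m)
    (hij : ∀ a c, ∑ p ∈ Λ, i a p.2 ⬝ᵥ j c p.1 = a ⬝ᵥ c) : |TT B f F Λ| ≤ c := by
  have := shift hS hT hW (fun u v : Tup k m => ∑ p ∈ Λ, u.1 p.2 ⬝ᵥ v.1 p.1)
    (fun u u' v => by simp [Finset.sum_add_distrib])
    (fun u v v' => by simp [Finset.sum_add_distrib])
    (fun a => (i a, 0)) (fun c => (j c, 0)) hij
    (fun u _ => sg (∑ p ∈ Λ, u.2 p.2) • f u) (fun _ v => sg (∑ p ∈ Λ, v.2 p.1) • F v)
    (fun u _ => hS.sg_smul (sg_cases _) (hf u)) (fun _ v => hT.sg_smul (sg_cases _) (hF v))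
    (fun _ _ _ => rfl) (fun _ _ _ => rfl)
  convert this using 2
  refine avg_congr fun u => avg_congr fun v => ?_
  rw [← sg_sum]
  simp only [wz, Finset.sum_add_distrib, sg_add, map_smul, LinearMap.smul_apply, smul_eq_mul]
  ring

theorem sum_single_dot (Λ : Finset (Fin k × Fin k)) (j l : Fin k) (a c : G m) :
    ∑ p ∈ Λ, (Pi.single l a : Fin k → G m) p.2 ⬝ᵥ (Pi.single j c : Fin k → G m) p.1 =
      if (j, l) ∈ Λ then a ⬝ᵥ c else 0 := by
  have : ∀ p : Fin k × Fin k, (Pi.single l a : Fin k → G m) p.2 ⬝ᵥ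
      (Pi.single j c : Fin k → G m) p.1 = if p = (j, l) then a ⬝ᵥ c else 0 := by
    rintro ⟨p1, p2⟩
    by_cases h1 : p1 = j <;> by_cases h2 : p2 = l <;> simp [h1, h2]
  simp only [this, Finset.sum_ite_eq']

theorem TT_le_one (hS : Symm S) (hT : Symm T) {c : ℝ} (hW : Wal B S T m c)
    {f : Tup k m → X} {F : Tup k m → Y} (hf : ∀ u, f u ∈ S) (hF : ∀ v, F v ∈ T)
    {Λ : Finset (Fin k × Fin k)} (hΛ : Λ.Nonempty) : |TT B f F Λ| ≤ c := by
  obtain ⟨⟨j, l⟩, hp⟩ := hΛ
  refine TT_le hS hT hW hf hF Λ (fun a => Pi.single l a) (fun c => Pi.single j c) fun a c => ?_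
  rw [sum_single_dot, if_pos hp]

theorem TT_le_two (hS : Symm S) (hT : Symm T) {c : ℝ} (hW : Wal B S T (m + m) c)
    {f : Tup k m → X} {F : Tup k m → Y} (hf : ∀ u, f u ∈ S) (hF : ∀ v, F v ∈ T)
    {Λ : Finset (Fin k × Fin k)} {j j' l l' : Fin k} (h1 : (j, l) ∉ Λ) (h2 : (j, l') ∈ Λ)
    (h3 : (j', l) ∈ Λ) : |TT B f F Λ| ≤ c := by
  refine TT_le hS hT hW hf hF Λ
    (fun a => Pi.single l' (fun i => a (Fin.castAdd m i)) + Pi.single l fun i => a (Fin.natAdd m i))
    (fun c => Pi.single j ((fun i => c (Fin.castAdd m i)) +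
        if (j', l') ∈ Λ then fun i => c (Fin.natAdd m i) else 0) +
      Pi.single j' fun i => c (Fin.natAdd m i)) fun a c => ?_
  simp only [Pi.add_apply, add_dotProduct, dotProduct_add, Finset.sum_add_distrib,
    sum_single_dot, h1, h2, h3, if_true, if_false]
  have : a ⬝ᵥ c = (fun i => a (Fin.castAdd m i)) ⬝ᵥ (fun i => c (Fin.castAdd m i)) +
      (fun i => a (Fin.natAdd m i)) ⬝ᵥ (fun i => c (Fin.natAdd m i)) := by
    simp only [dotProduct, Fin.sum_univ_add]
  rw [this]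
  split_ifs
  · generalize (fun i => a (Fin.castAdd m i)) ⬝ᵥ (fun i => c (Fin.castAdd m i)) = x
    generalize (fun i => a (Fin.natAdd m i)) ⬝ᵥ (fun i => c (Fin.natAdd m i)) = y
    generalize (fun i => a (Fin.castAdd m i)) ⬝ᵥ (fun i => c (Fin.natAdd m i)) = z
    revert x y z; decide
  · simp

theorem TT_flip (f : Tup k m → X) (F : Tup k m → Y) (Λ : Finset (Fin k × Fin k)) :
    TT B f F Λ = TT B.flip F f (Λ.map (Equiv.prodComm _ _).toEmbedding) := by
  rw [TT, TT, avg_comm]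
  refine avg_congr fun v => avg_congr fun u => ?_
  rw [Finset.prod_map, LinearMap.flip_apply]
  congr 1
  refine Finset.prod_congr rfl fun p _ => ?_
  simp only [wz, Equiv.coe_toEmbedding, Equiv.prodComm_apply, Prod.fst_swap, Prod.snd_swap]
  rw [dotProduct_comm, add_comm (v.2 p.1)]

theorem TT_col {Λ : Finset (Fin k × Fin k)} {l : Fin k} (hΛ : ∀ p ∈ Λ, p.2 = l)
    (hodd : Odd Λ.card) (f : Tup k m → X) (F : Tup k m → Y) (z : (Fin k → G m) → X) (M : ℝ)
    (hz : ∀ x, z x = M • avg fun η : G k => sg (η l) • f (x, η)) :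
    M * TT B f F Λ = TT B (fun u => sg (u.2 l) • z u.1) F Λ := by
  rw [TT, TT, avg_prod, avg_prod, ← avg_mul_left]
  refine avg_congr fun x => ?_
  rw [avg_comm, avg_comm (fun η : G k => fun v : Tup k m => _), ← avg_mul_left]
  refine avg_congr fun v => ?_
  have h1 : ∀ η : G k, ∏ p ∈ Λ, sg (wz (x, η) v p) =
      sg (η l) * ∏ p ∈ Λ, sg (v.2 p.1 + x p.2 ⬝ᵥ v.1 p.1) := by
    intro η
    have : sg (η l) = ∏ _p ∈ Λ, sg (η l) := by
      rw [Finset.prod_const]
      rcases sg_cases (η l) with h | h <;> simp [h, hodd.neg_one_pow]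
    rw [this, ← Finset.prod_mul_distrib]
    refine Finset.prod_congr rfl fun p hp => ?_
    simp only [wz, sg_add, hΛ p hp]
    ring
  simp only [h1]
  set w := ∏ p ∈ Λ, sg (v.2 p.1 + x p.2 ⬝ᵥ v.1 p.1)
  have h2 : (avg fun η : G k => sg (η l) * w * B (sg (η l) • z x) (F v)) = w * B (z x) (F v) := by
    rw [← avg_const (α := G k) (w * B (z x) (F v))]
    refine avg_congr fun η => ?_
    simp only [map_smul, LinearMap.smul_apply, smul_eq_mul]
    linear_combination (w * B (z x) (F v)) * sg_mul_self (η l)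
  rw [h2, hz, ← LinearMap.flip_apply B, map_smul, map_avg, smul_eq_mul, ← avg_mul_left,
    ← avg_mul_left, ← avg_mul_left]
  refine avg_congr fun η => ?_
  simp only [map_smul, LinearMap.flip_apply, smul_eq_mul]
  ring

theorem TT_row {Λ : Finset (Fin k × Fin k)} {j : Fin k} (hΛ : ∀ p ∈ Λ, p.1 = j)
    (hodd : Odd Λ.card) (f : Tup k m → X) (F : Tup k m → Y) (z : (Fin k → G m) → Y) (M : ℝ)
    (hz : ∀ x, z x = M • avg fun η : G k => sg (η j) • F (x, η)) :
    M * TT B f F Λ = TT B f (fun u => sg (u.2 j) • z u.1) Λ := by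
  rw [TT_flip f F, TT_flip f]
  refine TT_col ?_ (by simpa using hodd) _ _ _ _ hz
  intro p hp
  obtain ⟨q, hq, rfl⟩ := Finset.mem_map.1 hp
  exact hΛ q hq

theorem TT_single (s : G m → X) (t : G m → Y) (j l : Fin k) :
    TT B (fun u : Tup k m => sg (u.2 l) • s (u.1 l)) (fun v => sg (v.2 j) • t (v.1 j)) {(j, l)} =
      avg fun x => avg fun y => sg (x ⬝ᵥ y) * B (s x) (t y) := by
  rw [TT, avg_prod, ← avg_eval l (fun x => avg fun y => sg (x ⬝ᵥ y) * B (s x) (t y))]
  refine avg_congr fun x => ?_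
  rw [← avg_const (α := G k) (avg fun y => sg (x l ⬝ᵥ y) * B (s (x l)) (t y))]
  refine avg_congr fun η => ?_
  rw [avg_prod, ← avg_eval j (fun y => sg (x l ⬝ᵥ y) * B (s (x l)) (t y))]
  refine avg_congr fun χ => ?_
  rw [← avg_const (α := G k) (sg (x l ⬝ᵥ χ j) * B (s (x l)) (t (χ j)))]
  refine avg_congr fun ε => ?_
  simp only [Finset.prod_singleton, wz, sg_add, map_smul, LinearMap.smul_apply, smul_eq_mul]
  rcases sg_cases (η l) with h | h <;> rcases sg_cases (ε j) with h' | h' <;> simp [h, h']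

/-- Riesz product. -/
def riesz (γ W : Fin k × Fin k → ℝ) : ℝ := ∏ p, (1 + γ p * W p)

theorem riesz_eq (γ W : Fin k × Fin k → ℝ) :
    riesz γ W = ∑ Λ : Finset (Fin k × Fin k), (∏ p ∈ Λ, γ p) * ∏ p ∈ Λ, W p := by
  rw [riesz, Finset.prod_one_add, Finset.powerset_univ]
  simp only [Finset.prod_mul_distrib]

theorem riesz_nonneg {γ W : Fin k × Fin k → ℝ} (hγ : ∀ p, |γ p| ≤ 1) (hW : ∀ p, |W p| ≤ 1) :
    0 ≤ riesz γ W := by
  refine Finset.prod_nonneg fun p _ => ?_
  have : |γ p * W p| ≤ 1 := by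
    rw [abs_mul]; exact mul_le_one₀ (hγ p) (abs_nonneg _) (hW p)
  linarith [neg_abs_le (γ p * W p)]

theorem abs_prod_le_one {ι : Type*} (s : Finset ι) {γ : ι → ℝ} (hγ : ∀ p, |γ p| ≤ 1) :
    |∏ p ∈ s, γ p| ≤ 1 := by
  rw [Finset.abs_prod]
  exact Finset.prod_le_one (fun _ _ => abs_nonneg _) fun p _ => hγ p

theorem avg_riesz_le (hm : 2 * k ^ 2 ≤ m) {γ : Fin k × Fin k → ℝ} (hγ : ∀ p, |γ p| ≤ 1) :
    (avg fun u : Tup k m => avg fun v : Tup k m => riesz γ fun p => sg (wz u v p)) ≤ 2 := by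
  have h1 : (avg fun u : Tup k m => avg fun v : Tup k m => riesz γ fun p => sg (wz u v p)) =
      ∑ Λ : Finset (Fin k × Fin k), (∏ p ∈ Λ, γ p) *
        TT (LinearMap.mul ℝ ℝ) (fun _ : Tup k m => (1 : ℝ)) (fun _ => (1 : ℝ)) Λ := by
    simp only [riesz_eq, TT, avg_sum, avg_mul_left, LinearMap.mul_apply', mul_one]
  rw [h1]
  have h2 : ∀ Λ : Finset (Fin k × Fin k), (∏ p ∈ Λ, γ p) *
      TT (LinearMap.mul ℝ ℝ) (fun _ : Tup k m => (1 : ℝ)) (fun _ => (1 : ℝ)) Λ ≤
      (if Λ = ∅ then 1 else 0) + (1 / 2) ^ (k ^ 2) := by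
    intro Λ
    rcases Λ.eq_empty_or_nonempty with rfl | hΛ
    · simp [TT, avg_const]
    · rw [if_neg hΛ.ne_empty, zero_add]
      refine (le_abs_self _).trans ?_
      rw [abs_mul]
      have h3 := TT_le_one symm_abs_le symm_abs_le (wal_scalar hm)
        (f := fun _ : Tup k m => (1 : ℝ)) (F := fun _ => (1 : ℝ)) (by simp) (by simp) hΛ
      exact (mul_le_of_le_one_left (abs_nonneg _) (abs_prod_le_one _ hγ)).trans h3
  refine (Finset.sum_le_sum fun Λ _ => h2 Λ).trans ?_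
  rw [Finset.sum_add_distrib, Finset.sum_ite_eq', if_pos (Finset.mem_univ _), Finset.sum_const,
    Finset.card_univ, Fintype.card_finset, Fintype.card_prod, Fintype.card_fin, nsmul_eq_mul,
    Nat.cast_pow, sq, ← mul_pow]
  norm_num

/-- The odd part of the Riesz product. -/
noncomputable def nu (γ W : Fin k × Fin k → ℝ) : ℝ :=
  ∑ Λ ∈ univ.filter (fun Λ : Finset (Fin k × Fin k) => Odd Λ.card), (∏ p ∈ Λ, γ p) * ∏ p ∈ Λ, W p

theorem nu_eq (γ W : Fin k × Fin k → ℝ) :
    nu γ W = (riesz γ W - riesz (fun p => -γ p) W) / 2 := by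
  rw [nu, riesz_eq, riesz_eq, ← Finset.sum_sub_distrib, Finset.sum_div, Finset.sum_filter]
  refine Finset.sum_congr rfl fun Λ _ => ?_
  rw [Finset.prod_neg]
  split_ifs with h
  · rw [h.neg_one_pow]; ring
  · rw [(Nat.not_odd_iff_even.1 h).neg_one_pow]; ring

theorem nu_mul (γ W : Fin k × Fin k → ℝ) (z : ZMod 2) :
    nu γ (fun p => W p * sg z) = nu γ W * sg z := by
  rw [nu, nu, Finset.sum_mul]
  refine Finset.sum_congr rfl fun Λ hΛ => ?_
  have hodd := (Finset.mem_filter.1 hΛ).2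
  rw [Finset.prod_mul_distrib, Finset.prod_const]
  rcases sg_cases z with h | h <;> simp [h, hodd.neg_one_pow]

/-- The main estimate for the odd part of a Riesz product. -/
theorem psi_le (hS : Symm S) (hT : Symm T) {n : ℕ} {c : ℝ} (hW : Wal B S T n c)
    (hmn : n + k + k = m) (hm : 2 * k ^ 2 ≤ m)
    {f : Tup k m → X} {F : Tup k m → Y} (hf : ∀ u, f u ∈ S)
    (hF : ∀ v, F v ∈ T) {γ : Fin k × Fin k → ℝ} (hγ : ∀ p, |γ p| ≤ 1) :
    |∑ Λ ∈ univ.filter (fun Λ : Finset (Fin k × Fin k) => Odd Λ.card),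
      (∏ p ∈ Λ, γ p) * TT B f F Λ| ≤ 2 * c := by
  have hc : 0 ≤ c := hW.nonneg (hf 0) (hF 0)
  have hpair : ∀ x χ : Fin k → G m, ∃ i j : G n → G m, (∀ a c, i a ⬝ᵥ j c = a ⬝ᵥ c) ∧
      (∀ l a, χ l ⬝ᵥ i a = 0) ∧ ∀ l c, x l ⬝ᵥ j c = 0 := by
    subst hmn; exact exists_pair2 n k
  set H : Tup k m → Tup k m → ℝ := fun u v => nu γ (fun p => sg (wz u v p)) * B (f u) (F v)
    with hH
  have h1 : ∑ Λ ∈ univ.filter (fun Λ : Finset (Fin k × Fin k) => Odd Λ.card),
      (∏ p ∈ Λ, γ p) * TT B f F Λ = avg fun u => avg fun v => H u v := by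
    simp only [hH, nu, TT, Finset.sum_mul, avg_sum, ← avg_mul_left, mul_assoc]
  let su : G m → G m → Tup k m → Tup k m := fun y ψ u =>
    (fun l => u.1 l + y, fun l => u.2 l + u.1 l ⬝ᵥ ψ)
  let sv : G m → G m → Tup k m → Tup k m := fun y ψ v =>
    (fun l => v.1 l + ψ, fun l => v.2 l + y ⬝ᵥ v.1 l)
  have hsu : ∀ y ψ, Function.Injective (su y ψ) := by
    rintro y ψ ⟨x, η⟩ ⟨x', η'⟩ h
    simp only [su, Prod.mk.injEq] at h
    obtain rfl : x = x' := funext fun l => add_right_cancel (congrFun h.1 l)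
    obtain rfl : η = η' := funext fun l => add_right_cancel (congrFun h.2 l)
    rfl
  have hsv : ∀ y ψ, Function.Injective (sv y ψ) := by
    rintro y ψ ⟨x, η⟩ ⟨x', η'⟩ h
    simp only [sv, Prod.mk.injEq] at h
    obtain rfl : x = x' := funext fun l => add_right_cancel (congrFun h.1 l)
    obtain rfl : η = η' := funext fun l => add_right_cancel (congrFun h.2 l)
    rfl
  have h2 : ∀ y ψ, (avg fun u => avg fun v => H u v) =
      avg fun u => avg fun v => H (su y ψ u) (sv y ψ v) := by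
    intro y ψ
    rw [← avg_inj (hsu y ψ) (fun u => avg fun v => H u v)]
    exact avg_congr fun u => (avg_inj (hsv y ψ) (fun v => H (su y ψ u) v)).symm
  have h3 : (avg fun u => avg fun v => H u v) =
      avg fun u => avg fun v => avg fun y : G m => avg fun ψ : G m =>
        H (su y ψ u) (sv y ψ v) := by
    calc (avg fun u => avg fun v => H u v)
        = avg fun y : G m => avg fun ψ : G m => avg fun u => avg fun v =>
            H (su y ψ u) (sv y ψ v) := by
          simp only [← h2, avg_const]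
      _ = avg fun y : G m => avg fun u => avg fun ψ : G m => avg fun v =>
            H (su y ψ u) (sv y ψ v) := avg_congr fun a => avg_comm _
      _ = avg fun u => avg fun y : G m => avg fun ψ : G m => avg fun v =>
            H (su y ψ u) (sv y ψ v) := avg_comm _
      _ = avg fun u => avg fun y : G m => avg fun v => avg fun ψ : G m =>
            H (su y ψ u) (sv y ψ v) := avg_congr fun u => avg_congr fun a => avg_comm _
      _ = _ := avg_congr fun u => avg_comm _
  have h4 : ∀ y ψ u v, H (su y ψ u) (sv y ψ v) = nu γ (fun p => sg (wz u v p)) *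
      (sg (y ⬝ᵥ ψ) * B (f (su y ψ u)) (F (sv y ψ v))) := by
    intro y ψ u v
    have : (fun p => sg (wz (su y ψ u) (sv y ψ v) p)) =
        fun p => sg (wz u v p) * sg (y ⬝ᵥ ψ) := by
      funext p
      rw [← sg_add]
      refine congrArg sg ?_
      simp only [wz, su, sv, add_dotProduct, dotProduct_add]
      generalize v.2 p.1 = a1
      generalize u.2 p.2 = a2
      generalize y ⬝ᵥ v.1 p.1 = a3
      generalize u.1 p.2 ⬝ᵥ ψ = a4
      generalize u.1 p.2 ⬝ᵥ v.1 p.1 = a5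
      generalize y ⬝ᵥ ψ = a6
      revert a1 a2 a3 a4 a5 a6; decide
    rw [← mul_assoc, ← nu_mul, ← this]
  have h5 : ∀ u v : Tup k m, |avg fun y : G m => avg fun ψ : G m =>
      sg (y ⬝ᵥ ψ) * B (f (su y ψ u)) (F (sv y ψ v))| ≤ c := by
    intro u v
    obtain ⟨i, j, hij, hi, hj⟩ := hpair u.1 v.1
    refine shift hS hT hW (fun y ψ : G m => y ⬝ᵥ ψ) (fun _ _ _ => add_dotProduct _ _ _)
      (fun _ _ _ => dotProduct_add _ _ _) i j hij (fun y ψ => f (su y ψ u))
      (fun y ψ => F (sv y ψ v)) (fun _ _ => hf _) (fun _ _ => hF _) (fun y ψ c => ?_)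
      (fun y ψ a => ?_)
    · simp only [su, dotProduct_add, hj, add_zero]
    · have : ∀ l, i a ⬝ᵥ v.1 l = 0 := fun l => by rw [dotProduct_comm, hi]
      simp only [sv, add_dotProduct, this, add_zero]
  rw [h1, h3]
  simp only [h4, avg_mul_left]
  have hγ' : ∀ p, |(fun p => -γ p) p| ≤ 1 := fun p => by simpa using hγ p
  calc _ ≤ avg fun u : Tup k m => avg fun v : Tup k m => c / 2 *
        (riesz γ (fun p => sg (wz u v p)) + riesz (fun p => -γ p) fun p => sg (wz u v p)) := by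
        refine (abs_avg_le _).trans (avg_mono fun u => (abs_avg_le _).trans (avg_mono fun v => ?_))
        rw [abs_mul, nu_eq]
        have h6 := riesz_nonneg (W := fun p => sg (wz u v p)) hγ (by simp)
        have h7 := riesz_nonneg (W := fun p => sg (wz u v p)) hγ' (by simp)
        have h8 : |(riesz γ (fun p => sg (wz u v p)) -
            riesz (fun p => -γ p) fun p => sg (wz u v p)) / 2| ≤
            (riesz γ (fun p => sg (wz u v p)) +
              riesz (fun p => -γ p) fun p => sg (wz u v p)) / 2 := by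
          rw [abs_le]; constructor <;> linarith
        calc _ ≤ (riesz γ (fun p => sg (wz u v p)) +
              riesz (fun p => -γ p) fun p => sg (wz u v p)) / 2 * c :=
              mul_le_mul h8 (h5 u v) (abs_nonneg _) (by linarith)
          _ = _ := by ring
    _ ≤ 2 * c := by
        simp only [avg_mul_left, avg_add]
        have h6 := avg_riesz_le hm hγ
        have h7 := avg_riesz_le hm hγ'
        nlinarith

end Crest.Agent.R118
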