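import Crest.Agent.R118.Basic

/-! Sup-norm representers by Hahn–Banach. -/

namespace Crest.Agent.R118

open Finset

variable {X : Type*} [NormedAddCommGroup X] [NormedSpace ℝ X]

theorem rep_avg_sg_sg {k : ℕ} (l j : Fin k) :
    avg (fun η : G k => sg (η l) * sg (η j)) = if j = l then 1 else 0 := by
  have h := avg_sg_dot (n := k) (Pi.single l 1 + Pi.single j 1)
  simp only [dotProduct_add, dotProduct_single, mul_one, sg_add, G_add_eq_zero] at h
  rw [h]
  by_cases hjl : j = l
  · simp [hjl]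
  · rw [if_neg hjl, if_neg]
    intro h'
    have := congrFun h' l
    simp [Pi.single_apply, Ne.symm hjl] at this

theorem rep_orth {Y : Type*} [AddCommGroup Y] [Module ℝ Y] {k : ℕ} (x : Fin k → Y) (l : Fin k) :
    avg (fun η : G k => sg (η l) • ∑ j, sg (η j) • x j) = x l := by
  simp only [Finset.smul_sum, smul_smul]
  rw [avg_sum]
  simp only [avg_smul_const, rep_avg_sg_sg, ite_smul, one_smul, zero_smul, Finset.sum_ite_eq',
    Finset.mem_univ, if_true]

theorem rep_exists_near (ψ : StrongDual ℝ X) {ε : ℝ} (hε : 0 < ε) :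
    ∃ x : X, ‖x‖ ≤ 1 ∧ ‖ψ‖ - ε ≤ ψ x := by
  obtain ⟨x, hx, hr⟩ := ψ.exists_lt_apply_of_lt_opNorm (r := ‖ψ‖ - ε) (by linarith)
  rcases le_total 0 (ψ x) with h | h
  · exact ⟨x, hx.le, by rw [Real.norm_of_nonneg h] at hr; exact hr.le⟩
  · refine ⟨-x, by simpa using hx.le, ?_⟩
    rw [Real.norm_of_nonpos h] at hr
    rw [map_neg]
    exact hr.le

/-- Geometric Hahn–Banach in `Fin k → X`: `z` lies in the closure of the convex set
`{(M • avg (sg (η l) • f η))_l : ‖f η‖ ≤ 1}`; then correct the error `δ` by `∑ l, sg (η l) • δ l`. -/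
theorem repr_primal {k : ℕ} {M : ℝ} (hM : 0 ≤ M)
    (h : ∀ y : Fin k → StrongDual ℝ X,
      ∑ i, ‖y i‖ ≤ M * avg fun η : G k => ‖∑ i, sg (η i) • y i‖)
    (z : Fin k → X) (hz : ∀ l, ‖z l‖ ≤ 1) :
    ∃ f : G k → X, (∀ η, ‖f η‖ ≤ 1) ∧ ∀ l, z l = (M + 1) • avg fun η : G k => sg (η l) • f η := by
  set K : Set (Fin k → X) := {w | ∃ f : G k → X, (∀ η, ‖f η‖ ≤ 1) ∧
    ∀ l, w l = M • avg fun η : G k => sg (η l) • f η} with hK
  have hconv : Convex ℝ K := by
    rintro w1 ⟨f1, hf1, hw1⟩ w2 ⟨f2, hf2, hw2⟩ a b ha hb hab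
    refine ⟨fun η => a • f1 η + b • f2 η, fun η => ?_, fun l => ?_⟩
    · calc ‖a • f1 η + b • f2 η‖ ≤ ‖a • f1 η‖ + ‖b • f2 η‖ := norm_add_le _ _
        _ = a * ‖f1 η‖ + b * ‖f2 η‖ := by
          rw [norm_smul, norm_smul, Real.norm_of_nonneg ha, Real.norm_of_nonneg hb]
        _ ≤ a * 1 + b * 1 := by gcongr; exacts [hf1 η, hf2 η]
        _ = 1 := by linarith
    · simp only [Pi.add_apply, Pi.smul_apply, hw1, hw2, smul_add]
      have e1 : ∀ (c : ℝ) (f : G k → X), (avg fun η : G k => sg (η l) • c • f η) =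
          c • avg fun η : G k => sg (η l) • f η := by
        intro c f
        rw [← avg_smul]
        exact avg_congr fun η => smul_comm _ _ _
      rw [avg_add, e1, e1, smul_add, smul_comm M a, smul_comm M b]
  have hzK : z ∈ closure K := by
    by_contra hz'
    obtain ⟨φ, u, hφ, hu⟩ := geometric_hahn_banach_closed_point hconv.closure isClosed_closure hz'
    set y : Fin k → StrongDual ℝ X := fun l =>
      φ.comp (ContinuousLinearMap.single ℝ (fun _ : Fin k => X) l) with hy
    have hφw : ∀ w : Fin k → X, φ w = ∑ l, y l (w l) := by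
      intro w
      conv_lhs => rw [← Finset.univ_sum_single w, map_sum]
      rfl
    have h1 : φ z ≤ ∑ l, ‖y l‖ := by
      rw [hφw]
      refine Finset.sum_le_sum fun l _ => ?_
      calc y l (z l) ≤ ‖y l (z l)‖ := le_abs_self _
        _ ≤ ‖y l‖ * ‖z l‖ := (y l).le_opNorm _
        _ ≤ ‖y l‖ * 1 := by gcongr; exact hz l
        _ = _ := mul_one _
    have h2 : ∀ ε : ℝ, 0 < ε →
        M * (avg fun η : G k => ‖∑ i, sg (η i) • y i‖) ≤ u + M * ε := by
      intro ε hε
      choose f hf1 hf2 using fun η : G k => rep_exists_near (∑ i, sg (η i) • y i) hε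
      have hmem : (fun l => M • avg fun η : G k => sg (η l) • f η) ∈ K := ⟨f, hf1, fun _ => rfl⟩
      have h3 := hφ _ (subset_closure hmem)
      rw [hφw] at h3
      have h4 : ∑ l, y l (M • avg fun η : G k => sg (η l) • f η) =
          M * avg fun η : G k => (∑ i, sg (η i) • y i) (f η) := by
        simp only [map_smul, smul_eq_mul, ContinuousLinearMap.sum_apply,
          ContinuousLinearMap.smul_apply]
        rw [avg_sum, ← Finset.mul_sum]
        congr 1
        refine Finset.sum_congr rfl fun l _ => ?_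
        have := map_avg (y l : X →ₗ[ℝ] ℝ) fun η : G k => sg (η l) • f η
        simpa using this
      rw [h4] at h3
      have h5 : (avg fun η : G k => ‖∑ i, sg (η i) • y i‖) ≤
          (avg fun η : G k => (∑ i, sg (η i) • y i) (f η)) + ε := by
        rw [← avg_const (α := G k) ε, ← avg_add]
        exact avg_mono fun η => by linarith [hf2 η]
      nlinarith [mul_le_mul_of_nonneg_left h5 hM]
    have h3 : M * (avg fun η : G k => ‖∑ i, sg (η i) • y i‖) ≤ u := by
      refine le_of_forall_pos_le_add fun ε hε => ?_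
      have h4 := h2 (ε / (M + 1)) (by positivity)
      have h5 : M * (ε / (M + 1)) ≤ ε := by
        rw [← mul_div_assoc, div_le_iff₀ (by positivity)]
        nlinarith
      linarith
    linarith [h y]
  obtain ⟨w, ⟨g, hg, hw⟩, hd⟩ := Metric.mem_closure_iff.1 hzK (1 / (k + 1)) (by positivity)
  have hδ : ∀ l, ‖z l - w l‖ ≤ 1 / (k + 1) := fun l =>
    (norm_le_pi_norm (z - w) l).trans (by rw [← dist_eq_norm]; exact hd.le)
  have hM1 : (0 : ℝ) < M + 1 := by positivity
  refine ⟨fun η => (M + 1)⁻¹ • (M • g η + ∑ j, sg (η j) • (z j - w j)), fun η => ?_, fun l => ?_⟩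
  · have h1 : ‖∑ j, sg (η j) • (z j - w j)‖ ≤ 1 := by
      refine (norm_sum_le _ _).trans ?_
      calc ∑ j, ‖sg (η j) • (z j - w j)‖ ≤ ∑ _j : Fin k, (1 / ((k : ℝ) + 1)) := by
            refine Finset.sum_le_sum fun j _ => ?_
            rw [norm_smul, Real.norm_eq_abs, abs_sg, one_mul]
            exact hδ j
        _ = k / ((k : ℝ) + 1) := by simp [div_eq_mul_inv]
        _ ≤ 1 := by rw [div_le_one (by positivity)]; linarith
    have h2 : ‖M • g η‖ ≤ M := by
      rw [norm_smul, Real.norm_of_nonneg hM]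
      exact mul_le_of_le_one_right hM (hg η)
    rw [norm_smul, norm_inv, Real.norm_of_nonneg hM1.le, inv_mul_le_iff₀ hM1, mul_one]
    exact (norm_add_le _ _).trans (add_le_add h2 h1)
  · have e1 : ∀ η : G k, sg (η l) • (M + 1)⁻¹ • (M • g η + ∑ j, sg (η j) • (z j - w j)) =
        (M + 1)⁻¹ • (M • sg (η l) • g η + sg (η l) • ∑ j, sg (η j) • (z j - w j)) := by
      intro η
      rw [smul_comm, smul_add, smul_comm (sg (η l)) M]
    simp only [e1]
    rw [avg_smul, smul_smul, mul_inv_cancel₀ hM1.ne', one_smul, avg_add, avg_smul, rep_orth,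
      ← hw]
    abel

/-- Analytic Hahn–Banach: extend `∑ sg (η j) • x j ↦ ∑ z j (x j)` to `G k → X`, dominated by
`g ↦ M * avg ‖g η‖`. -/
theorem repr_dual {k : ℕ} {M : ℝ} (hM : 0 ≤ M)
    (h : ∀ y : Fin k → X, ∑ i, ‖y i‖ ≤ M * avg fun η : G k => ‖∑ i, sg (η i) • y i‖)
    (z : Fin k → StrongDual ℝ X) (hz : ∀ l, ‖z l‖ ≤ 1) :
    ∃ f : G k → StrongDual ℝ X, (∀ η, ‖f η‖ ≤ 1) ∧
      ∀ l, z l = (M + 1) • avg fun η : G k => sg (η l) • f η := by
  classical
  let T : (Fin k → X) →ₗ[ℝ] (G k → X) :=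
    { toFun := fun x η => ∑ j, sg (η j) • x j
      map_add' := fun x y => by
        funext η; simp [Finset.sum_add_distrib]
      map_smul' := fun c x => by
        funext η
        simp only [Pi.smul_apply, RingHom.id_apply, Finset.smul_sum]
        exact Finset.sum_congr rfl fun j _ => smul_comm _ _ _ }
  let φ0 : (G k → X) →ₗ[ℝ] ℝ :=
    { toFun := fun g => ∑ j, z j (avg fun η : G k => sg (η j) • g η)
      map_add' := fun x y => by
        simp only [Pi.add_apply, smul_add, avg_add, map_add, Finset.sum_add_distrib]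
      map_smul' := fun c x => by
        simp only [Pi.smul_apply, RingHom.id_apply, smul_eq_mul, Finset.mul_sum]
        refine Finset.sum_congr rfl fun j _ => ?_
        rw [← smul_eq_mul, ← map_smul, ← avg_smul]
        congr 1
        exact avg_congr fun η => smul_comm _ _ _ }
  have hφT : ∀ x : Fin k → X, φ0 (T x) = ∑ j, z j (x j) := by
    intro x
    change ∑ j, z j (avg fun η : G k => sg (η j) • ∑ i, sg (η i) • x i) = _
    simp only [rep_orth]
  obtain ⟨Φ, hΦ1, hΦ2⟩ := exists_extension_of_le_sublinear (φ0.toPMap (LinearMap.range T))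
    (fun g => M * avg fun η => ‖g η‖)
    (fun c hc x => by
      simp only [Pi.smul_apply, norm_smul, Real.norm_of_nonneg hc.le, avg_mul_left]; ring)
    (fun x y => by
      rw [← mul_add, ← avg_add]
      exact mul_le_mul_of_nonneg_left (avg_mono fun η => norm_add_le _ _) hM)
    (by
      rintro ⟨_, x, rfl⟩
      change φ0 (T x) ≤ M * avg fun η : G k => ‖∑ j, sg (η j) • x j‖
      rw [hφT]
      refine le_trans (Finset.sum_le_sum fun l _ => ?_) (h x)
      calc z l (x l) ≤ ‖z l (x l)‖ := le_abs_self _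
        _ ≤ ‖z l‖ * ‖x l‖ := (z l).le_opNorm _
        _ ≤ 1 * ‖x l‖ := by gcongr; exact hz l
        _ = _ := one_mul _)
  have hΦT : ∀ x : Fin k → X, Φ (T x) = ∑ j, z j (x j) := by
    intro x
    rw [← hφT]
    exact hΦ1 ⟨T x, x, rfl⟩
  have hc : (0 : ℝ) < Fintype.card (G k) := by exact_mod_cast Fintype.card_pos
  have hM1 : (0 : ℝ) < M + 1 := by positivity
  let L : G k → X →ₗ[ℝ] ℝ := fun η =>
    ((M + 1)⁻¹ * (Fintype.card (G k) : ℝ)) • Φ.comp (LinearMap.single ℝ (fun _ : G k => X) η)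
  have hL0 : ∀ η x, L η x ≤ ‖x‖ := by
    intro η x
    have h1 := hΦ2 (Pi.single η x)
    have h2 : (avg fun η' : G k => ‖(Pi.single η x : G k → X) η'‖) =
        (Fintype.card (G k) : ℝ)⁻¹ * ‖x‖ := by
      rw [← smul_eq_mul, ← avg_ite η]
      refine avg_congr fun η' => ?_
      by_cases hη : η' = η
      · subst hη; simp
      · simp [hη]
    rw [h2] at h1
    change ((M + 1)⁻¹ * (Fintype.card (G k) : ℝ)) * Φ (Pi.single η x) ≤ ‖x‖
    calc ((M + 1)⁻¹ * (Fintype.card (G k) : ℝ)) * Φ (Pi.single η x)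
        ≤ ((M + 1)⁻¹ * (Fintype.card (G k) : ℝ)) * (M * ((Fintype.card (G k) : ℝ)⁻¹ * ‖x‖)) :=
          mul_le_mul_of_nonneg_left h1 (by positivity)
      _ = M / (M + 1) * ‖x‖ := by field_simp
      _ ≤ 1 * ‖x‖ := by
          gcongr
          rw [div_le_one hM1]; linarith
      _ = _ := one_mul _
  have hL : ∀ η x, ‖L η x‖ ≤ 1 * ‖x‖ := by
    intro η x
    rw [one_mul, Real.norm_eq_abs, abs_le]
    refine ⟨?_, hL0 η x⟩
    have := hL0 η (-x)
    rw [map_neg, norm_neg] at this
    linarith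
  refine ⟨fun η => (L η).mkContinuous 1 (hL η), fun η => LinearMap.mkContinuous_norm_le _ zero_le_one _,
    fun l => ?_⟩
  ext x
  have h1 := map_avg ((ContinuousLinearMap.apply ℝ ℝ x : StrongDual ℝ X →L[ℝ] ℝ) :
    StrongDual ℝ X →ₗ[ℝ] ℝ) fun η : G k => sg (η l) • (L η).mkContinuous 1 (hL η)
  simp only [ContinuousLinearMap.coe_coe, ContinuousLinearMap.apply_apply,
    ContinuousLinearMap.smul_apply, LinearMap.mkContinuous_apply, smul_eq_mul] at h1
  rw [ContinuousLinearMap.smul_apply, h1, smul_eq_mul]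
  have h2 : T (Pi.single l x) = ∑ η : G k, sg (η l) • (Pi.single η x : G k → X) := by
    funext η'
    change ∑ j, sg (η' j) • (Pi.single l x : Fin k → X) j = _
    rw [Finset.sum_apply, Finset.sum_eq_single l, Finset.sum_eq_single η']
    · simp
    · intro b _ hb; simp [Pi.single_apply, Ne.symm hb]
    · simp
    · intro b _ hb; simp [hb]
    · simp
  have h3 := hΦT (Pi.single l x)
  rw [h2, map_sum, Finset.sum_eq_single l (fun b _ hb => by simp [hb]) (by simp)] at h3
  simp only [Pi.single_eq_same, map_smul, smul_eq_mul] at h3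
  rw [← h3, avg, smul_eq_mul, Finset.mul_sum, Finset.mul_sum]
  refine Finset.sum_congr rfl fun η _ => ?_
  change _ = (M + 1) * ((Fintype.card (G k) : ℝ)⁻¹ * (sg (η l) *
    (((M + 1)⁻¹ * (Fintype.card (G k) : ℝ)) * Φ (Pi.single η x))))
  field_simp

end Crest.Agent.R118
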