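import Crest.Agent.R118.Basic

/-! The shift lemma, standard pairs, and the Walsh functional of finite rank forms. -/

namespace Crest.Agent.R118

open Finset

section general

variable {X Y : Type*} [AddCommGroup X] [Module ℝ X] [AddCommGroup Y] [Module ℝ Y]
  {B : X →ₗ[ℝ] Y →ₗ[ℝ] ℝ} {S : Set X} {T : Set Y}

theorem Wal.mono_const {n : ℕ} {c c' : ℝ} (h : Wal B S T n c) (hc : c ≤ c') : Wal B S T n c' :=
  fun s t hs ht => (h s t hs ht).trans hc

theorem Wal.mono_set {S' : Set X} {n : ℕ} {c : ℝ} (h : Wal B S' T n c) (hS : S ⊆ S') :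
    Wal B S T n c :=
  fun s t hs ht => h s t (fun x => hS (hs x)) ht

theorem Wal.nonneg {n : ℕ} {c : ℝ} (h : Wal B S T n c) {x : X} {y : Y} (hx : x ∈ S) (hy : y ∈ T) :
    0 ≤ c :=
  (abs_nonneg _).trans (h (fun _ => x) (fun _ => y) (fun _ => hx) (fun _ => hy))

theorem wal_of_bound {n : ℕ} {c : ℝ} (h : ∀ x ∈ S, ∀ y ∈ T, |B x y| ≤ c) : Wal B S T n c := by
  intro s t hs ht
  refine abs_avg_le_of_le fun x => abs_avg_le_of_le fun y => ?_
  rw [abs_mul, abs_sg, one_mul]
  exact h _ (hs x) _ (ht y)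

/-- The shift lemma. -/
theorem shift (hS : Symm S) (hT : Symm T) {n : ℕ} {c : ℝ} (hW : Wal B S T n c)
    {U V : Type*} [Fintype U] [Fintype V] [AddCommGroup U] [AddCommGroup V]
    (b : U → V → ZMod 2) (hb1 : ∀ u u' v, b (u + u') v = b u v + b u' v)
    (hb2 : ∀ u v v', b u (v + v') = b u v + b u v')
    (i : G n → U) (j : G n → V) (hij : ∀ a c, b (i a) (j c) = a ⬝ᵥ c)
    (s : U → V → X) (t : U → V → Y) (hs : ∀ u v, s u v ∈ S) (ht : ∀ u v, t u v ∈ T)
    (hsj : ∀ u v c, s u (v + j c) = s u v) (hti : ∀ u v a, t (u + i a) v = t u v) :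
    |avg fun u => avg fun v => sg (b u v) * B (s u v) (t u v)| ≤ c := by
  set F : U → V → ℝ := fun u v => sg (b u v) * B (s u v) (t u v) with hF
  have h1 : ∀ a c : G n, (avg fun u => avg fun v => F u v) =
      avg fun u => avg fun v => F (u + i a) (v + j c) := by
    intro a c
    rw [← avg_add_right (fun u => avg fun v => F u v) (i a)]
    exact avg_congr fun u => (avg_add_right (fun v => F (u + i a) v) (j c)).symm
  have h2 : (avg fun u => avg fun v => F u v) =
      avg fun u => avg fun v => avg fun a : G n => avg fun c : G n => F (u + i a) (v + j c) := by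
    calc (avg fun u => avg fun v => F u v)
        = avg fun a : G n => avg fun c : G n => avg fun u => avg fun v =>
            F (u + i a) (v + j c) := by
          simp only [← h1, avg_const]
      _ = avg fun a : G n => avg fun u => avg fun c : G n => avg fun v =>
            F (u + i a) (v + j c) := avg_congr fun a => avg_comm _
      _ = avg fun u => avg fun a : G n => avg fun c : G n => avg fun v =>
            F (u + i a) (v + j c) := avg_comm _
      _ = avg fun u => avg fun a : G n => avg fun v => avg fun c : G n =>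
            F (u + i a) (v + j c) := avg_congr fun u => avg_congr fun a => avg_comm _
      _ = _ := avg_congr fun u => avg_comm _
  show |avg fun u => avg fun v => F u v| ≤ c
  rw [h2]
  refine abs_avg_le_of_le fun u => abs_avg_le_of_le fun v => ?_
  have h3 : ∀ a c : G n, F (u + i a) (v + j c) = sg (b u v) * (sg (a ⬝ᵥ c) *
      B (sg (b (i a) v) • s (u + i a) v) (sg (b u (j c)) • t u (v + j c))) := by
    intro a c
    simp only [hF, hb1, hb2, hij, sg_add, hsj, hti, map_smul, LinearMap.smul_apply, smul_eq_mul]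
    ring
  simp only [h3, avg_mul_left]
  rw [abs_mul, abs_sg, one_mul]
  exact hW _ _ (fun a => hS.sg_smul (sg_cases _) (hs _ _)) (fun c => hT.sg_smul (sg_cases _) (ht _ _))

end general

theorem pair_step {n : ℕ} (φ : G (n + 1) →ₗ[ZMod 2] ZMod 2) :
    ∃ P Q : G n →ₗ[ZMod 2] G (n + 1), (∀ a c, P a ⬝ᵥ Q c = a ⬝ᵥ c) ∧ ∀ a, φ (P a) = 0 := by
  have hQ : ∀ i0 : Fin (n + 1), ∃ Q : G n →ₗ[ZMod 2] G (n + 1),
      (∀ a, Q a i0 = 0) ∧ ∀ a i, Q a (i0.succAbove i) = a i := by
    intro i0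
    refine ⟨LinearMap.pi fun j => i0.insertNth (α := fun _ => G n →ₗ[ZMod 2] ZMod 2) 0
      (fun i => LinearMap.proj i) j, fun a => ?_, fun a i => ?_⟩ <;> simp
  by_cases h : ∃ i0, φ (Pi.single i0 1) = 1
  · obtain ⟨i0, hi0⟩ := h
    obtain ⟨Q, hQ0, hQ1⟩ := hQ i0
    refine ⟨Q + (LinearMap.toSpanSingleton _ _ (Pi.single i0 1)).comp (φ.comp Q), Q,
      fun a c => ?_, fun a => ?_⟩
    · simp only [LinearMap.add_apply, LinearMap.comp_apply, LinearMap.toSpanSingleton_apply,
        add_dotProduct, smul_dotProduct, single_dotProduct, hQ0, mul_zero, smul_zero, add_zero]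
      simp only [dotProduct, Fin.sum_univ_succAbove _ i0, hQ0, hQ1, mul_zero, zero_add]
    · simp only [LinearMap.add_apply, LinearMap.comp_apply, LinearMap.toSpanSingleton_apply,
        map_add, map_smul, hi0, smul_eq_mul, mul_one, z2_add_self]
  · push Not at h
    have h0 : φ = 0 := by
      refine LinearMap.pi_ext' fun i => LinearMap.ext_ring ?_
      simpa using (z2_cases _).resolve_right (h i)
    obtain ⟨Q, hQ0, hQ1⟩ := hQ 0
    refine ⟨Q, Q, fun a c => ?_, fun a => by simp [h0]⟩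
    simp only [dotProduct, Fin.sum_univ_succAbove _ 0, hQ0, hQ1, mul_zero, zero_add]

theorem exists_pair1 (n k : ℕ) (φ : Fin k → G (n + k) →ₗ[ZMod 2] ZMod 2) :
    ∃ I J : G n →ₗ[ZMod 2] G (n + k), (∀ a c, I a ⬝ᵥ J c = a ⬝ᵥ c) ∧ ∀ l a, φ l (I a) = 0 := by
  induction k with
  | zero => exact ⟨LinearMap.id, LinearMap.id, fun a c => rfl, fun l => l.elim0⟩
  | succ k ih =>
    obtain ⟨P, Q, hPQ, hP⟩ := pair_step (n := n + k) (φ (Fin.last k))
    obtain ⟨I, J, hIJ, hI⟩ := ih fun l => (φ l.castSucc).comp P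
    refine ⟨P.comp I, Q.comp J, fun a c => ?_, fun l a => ?_⟩
    · exact (hPQ _ _).trans (hIJ a c)
    · refine Fin.lastCases ?_ (fun l => ?_) l
      · exact hP _
      · exact hI l a

/-- Dot product with a fixed vector as a linear functional. -/
def dotL {n : ℕ} (v : G n) : G n →ₗ[ZMod 2] ZMod 2 where
  toFun x := v ⬝ᵥ x
  map_add' x y := dotProduct_add _ _ _
  map_smul' c x := by simp

theorem exists_pair2 (n k : ℕ) (x χ : Fin k → G (n + k + k)) :
    ∃ i j : G n → G (n + k + k), (∀ a c, i a ⬝ᵥ j c = a ⬝ᵥ c) ∧ (∀ l a, χ l ⬝ᵥ i a = 0) ∧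
      ∀ l c, x l ⬝ᵥ j c = 0 := by
  obtain ⟨I1, J1, h1, h1'⟩ := exists_pair1 (n + k) k fun l => dotL (χ l)
  obtain ⟨J2, I2, h2, h2'⟩ := exists_pair1 n k fun l => (dotL (x l)).comp J1
  refine ⟨fun a => I1 (I2 a), fun c => J1 (J2 c), fun a c => ?_, fun l a => h1' l _,
    fun l c => h2' l c⟩
  rw [h1, dotProduct_comm, h2, dotProduct_comm]

theorem Wal.mono_dim {X Y : Type*} [AddCommGroup X] [Module ℝ X] [AddCommGroup Y] [Module ℝ Y]
    {B : X →ₗ[ℝ] Y →ₗ[ℝ] ℝ} {S : Set X} {T : Set Y} (hS : Symm S) (hT : Symm T) {n m : ℕ} {c : ℝ}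
    (h : Wal B S T n c) (hnm : n ≤ m) : Wal B S T m c := by
  obtain ⟨k, rfl⟩ := Nat.exists_eq_add_of_le hnm
  obtain ⟨I, J, hIJ, -⟩ := exists_pair1 n k fun _ => 0
  intro s t hs ht
  exact shift hS hT h (fun u v : G (n + k) => u ⬝ᵥ v) (fun _ _ _ => add_dotProduct _ _ _)
    (fun _ _ _ => dotProduct_add _ _ _) I J hIJ (fun u _ => s u) (fun _ v => t v)
    (fun u _ => hs u) (fun _ v => ht v) (fun _ _ _ => rfl) (fun _ _ _ => rfl)

theorem scalar_bound {n p : ℕ} (h : 2 * p ≤ n) (a b : G n → ℝ) (ha : ∀ x, |a x| ≤ 1)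
    (hb : ∀ y, |b y| ≤ 1) :
    |avg fun x => avg fun y => sg (x ⬝ᵥ y) * (a x * b y)| ≤ (1 / 2) ^ p := by
  set A : G n → ℝ := fun y => avg fun x => sg (y ⬝ᵥ x) * a x with hA
  have h1 : (avg fun x => avg fun y => sg (x ⬝ᵥ y) * (a x * b y)) = avg fun y => A y * b y := by
    rw [avg_comm]
    refine avg_congr fun y => ?_
    rw [hA, ← avg_mul_right]
    refine avg_congr fun x => ?_
    rw [dotProduct_comm]; ring
  have h2 : ∑ y, A y * A y ≤ 1 := by
    rw [hA, parseval]
    refine avg_le_of_le fun x => ?_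
    have := ha x
    nlinarith [abs_mul_abs_self (a x), abs_nonneg (a x)]
  have h3 : (avg fun y => A y * b y) ^ 2 ≤ ((1 / 2) ^ p) ^ 2 := by
    calc (avg fun y => A y * b y) ^ 2 ≤ avg fun y => (A y * b y) ^ 2 := sq_avg_le _
      _ ≤ avg fun y => A y * A y := by
          refine avg_mono fun y => ?_
          have h4 : b y ^ 2 ≤ 1 := by
            have := hb y
            nlinarith [abs_mul_abs_self (b y), abs_nonneg (b y)]
          nlinarith [mul_self_nonneg (A y)]
      _ ≤ ((2 : ℝ) ^ n)⁻¹ := by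
          rw [avg, card_G, smul_eq_mul]
          exact mul_le_of_le_one_right (by positivity) h2
      _ ≤ ((1 / 2) ^ p) ^ 2 := by
          rw [← pow_mul, ← inv_pow, one_div]
          exact pow_le_pow_of_le_one (by norm_num) (by norm_num) (by omega)
  rw [h1]
  exact abs_le_of_sq_le_sq' h3 (by positivity) |> abs_le.2

theorem symm_abs_le : Symm {x : ℝ | |x| ≤ 1} := fun x hx => by simpa using hx

theorem wal_scalar {n p : ℕ} (h : 2 * p ≤ n) :
    Wal (LinearMap.mul ℝ ℝ) {x : ℝ | |x| ≤ 1} {x : ℝ | |x| ≤ 1} n ((1 / 2) ^ p) :=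
  fun s t hs ht => scalar_bound h s t hs ht

section normed

variable {X : Type*} [NormedAddCommGroup X] [NormedSpace ℝ X]

/-- The bilinear form `(x, y) ↦ y (u x)`. -/
noncomputable def form (u : X →L[ℝ] X) : X →ₗ[ℝ] StrongDual ℝ X →ₗ[ℝ] ℝ :=
  LinearMap.mk₂ ℝ (fun x y => y (u x)) (by simp) (by simp) (by simp) (by simp)

@[simp] theorem form_apply (u : X →L[ℝ] X) (x : X) (y : StrongDual ℝ X) :
    form u x y = y (u x) := rfl

theorem symm_ball {E : Type*} [SeminormedAddCommGroup E] : Symm {x : E | ‖x‖ ≤ 1} :=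
  fun x hx => by simpa using hx

theorem wal_finite_rank (u : X →L[ℝ] X)
    (hu : FiniteDimensional ℝ (LinearMap.range (u : X →ₗ[ℝ] X))) :
    ∃ Γ : ℝ, 0 ≤ Γ ∧ ∀ n p : ℕ, 2 * p ≤ n →
      Wal (form u) {x | ‖x‖ ≤ 1} {y | ‖y‖ ≤ 1} n (Γ * (1 / 2) ^ p) := by
  set R := LinearMap.range (u : X →ₗ[ℝ] X)
  let e := Module.finBasis ℝ R
  let u' : X →L[ℝ] R := u.codRestrict R fun x => LinearMap.mem_range_self _ x
  let φ : Fin (Module.finrank ℝ R) → X →L[ℝ] ℝ := fun i =>
    (LinearMap.toContinuousLinearMap (e.coord i)).comp u'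
  have hφ : ∀ x, u x = ∑ i, φ i x • (e i : X) := by
    intro x
    have := congrArg (fun z : R => (z : X)) (e.sum_repr (u' x))
    simp only [Submodule.coe_sum, Submodule.coe_smul] at this
    exact this.symm
  refine ⟨∑ i, (‖φ i‖ + 1) * (‖(e i : X)‖ + 1), by positivity, fun n p hp s t hs ht => ?_⟩
  have h1 : (avg fun x => avg fun y => sg (x ⬝ᵥ y) * form u (s x) (t y)) =
      ∑ i, (‖φ i‖ + 1) * (‖(e i : X)‖ + 1) * avg fun x => avg fun y =>
        sg (x ⬝ᵥ y) * ((φ i (s x) / (‖φ i‖ + 1)) * (t y (e i) / (‖(e i : X)‖ + 1))) := by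
    simp only [← avg_mul_left, ← avg_sum]
    refine avg_congr fun x => avg_congr fun y => ?_
    rw [form_apply, hφ, map_sum, Finset.mul_sum]
    refine Finset.sum_congr rfl fun i _ => ?_
    rw [map_smul, smul_eq_mul]
    field_simp
  rw [h1, Finset.sum_mul]
  refine (Finset.abs_sum_le_sum_abs _ _).trans (Finset.sum_le_sum fun i _ => ?_)
  rw [abs_mul, abs_of_nonneg (by positivity)]
  refine mul_le_mul_of_nonneg_left (scalar_bound hp _ _ (fun x => ?_) fun y => ?_) (by positivity)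
  · rw [abs_div, abs_of_nonneg (a := ‖φ i‖ + 1) (by positivity), div_le_one (by positivity)]
    have h2 := (φ i).le_opNorm (s x)
    have h3 : ‖s x‖ ≤ 1 := hs x
    rw [Real.norm_eq_abs] at h2
    nlinarith [norm_nonneg (φ i)]
  · rw [abs_div, abs_of_nonneg (a := ‖(e i : X)‖ + 1) (by positivity), div_le_one (by positivity)]
    have h2 := (t y).le_opNorm (e i)
    have h3 : ‖t y‖ ≤ 1 := ht y
    rw [Real.norm_eq_abs] at h2
    nlinarith [norm_nonneg (e i : X)]

end normed

end Crest.Agent.R118
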