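import Crest.Agent.R118.Key
import Crest.Agent.R118.Iter
import Crest.Agent.R118.Kahane
import Crest.Agent.R118.Repr

/-! The recursion step from the two cotype assumptions. -/

namespace Crest.Agent.R118

open Finset Crest.AnalysisR

variable {X : Type*} [NormedAddCommGroup X] [NormedSpace ℝ X]

theorem step_of_repr {k : ℕ} {M : ℝ} (hM : 0 ≤ M)
    (hX : ∀ z : Fin k → X, (∀ l, ‖z l‖ ≤ 1) → ∃ f : G k → X, (∀ η, ‖f η‖ ≤ 1) ∧
      ∀ l, z l = M • avg fun η : G k => sg (η l) • f η)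
    (hY : ∀ z : Fin k → StrongDual ℝ X, (∀ l, ‖z l‖ ≤ 1) → ∃ f : G k → StrongDual ℝ X,
      (∀ η, ‖f η‖ ≤ 1) ∧ ∀ l, z l = M • avg fun η : G k => sg (η l) • f η)
    {Ω : Type*} [Fintype Ω] {p g : Ω → ℝ} (hp0 : ∀ ω, 0 ≤ p ω) (hp1 : ∑ ω, p ω = 1)
    (hg : ∀ ω, |g ω| ≤ 1) (hmom : ∀ a, Odd a → 3 ≤ a → |∑ ω, p ω * g ω ^ a| ≤ 1 / k)
    (hpos : 0 < (k * ∑ ω, p ω * g ω) ^ 2)
    (hsmall : 4 * k * M + 11 * M ^ 2 ≤ (k * ∑ ω, p ω * g ω) ^ 2 / 2) :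
    ∃ (Φ : Set X → Set X) (β : ℝ), 0 ≤ β ∧ Step Φ k β := by
  choose! rep hr1 hr2 using hX
  let R : Set X → Set X := fun S =>
    (fun w : (Fin k → X) × G k => rep w.1 w.2) '' ({z | ∀ l, z l ∈ S} ×ˢ Set.univ)
  let Φ : Set X → Set X := fun S => S ∪ (R S ∪ -R S)
  have hΦ : ∀ S, Good S → Good (Φ S) ∧ S ⊆ Φ S := by
    intro S hS
    have hR : (R S).Finite :=
      ((Set.Finite.pi' fun _ => hS.1).prod Set.finite_univ).image _
    have hR1 : ∀ x ∈ R S, ‖x‖ ≤ 1 := by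
      rintro _ ⟨⟨z, η⟩, ⟨hz, -⟩, rfl⟩
      exact hr1 z (fun l => hS.2.2 _ (hz l)) η
    refine ⟨⟨hS.1.union (hR.union hR.neg), ?_, ?_⟩, Set.subset_union_left⟩
    · rintro x (hx | hx | hx)
      · exact Or.inl (hS.2.1 x hx)
      · exact Or.inr (Or.inr (by simpa using hx))
      · exact Or.inr (Or.inl hx)
    · rintro x (hx | hx | hx)
      · exact hS.2.2 x hx
      · exact hR1 x hx
      · simpa using hR1 _ hx
  set Q := (k * ∑ ω, p ω * g ω) ^ 2 with hQ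
  refine ⟨Φ, 2 ^ (k ^ 2) * M ^ 2 / Q, by positivity, hΦ, ?_⟩
  intro u S hS n c1 c2 hn h1 h2 s t hs ht
  have h3 := key (hΦ S hS).1.2.1 (hΦ S hS).2 symm_ball hM
    (fun z hz => ⟨rep z, fun η => Or.inr (Or.inl ⟨(z, η), ⟨hz, trivial⟩, rfl⟩),
      hr2 z fun l => hS.2.2 _ (hz l)⟩) hY hp0 hp1 hg hmom rfl (by omega) h1 h2 s t hs ht
  have hc1 : 0 ≤ c1 := h1.nonneg ((hΦ S hS).2 (hs 0)) (ht 0)
  rw [← hQ] at h3
  refine le_of_mul_le_mul_left (h3.trans ?_) hpos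
  have h4 := mul_le_mul_of_nonneg_right hsmall hc1
  have h5 : Q * (c1 / 2 + 2 ^ (k ^ 2) * M ^ 2 / Q * c2) = Q / 2 * c1 + 2 ^ (k ^ 2) * M ^ 2 * c2 := by
    field_simp
  rw [h5]
  linarith

theorem exists_step {q r C D : ℝ} (hq : 2 ≤ q) (hr : 2 ≤ r) (hX : HasRademacherCotype X q C)
    (hX' : HasRademacherCotype (StrongDual ℝ X) r D) :
    ∃ (Φ : Set X → Set X) (k : ℕ) (β : ℝ), 1 ≤ k ∧ 0 ≤ β ∧ Step Φ k β := by
  obtain ⟨P, hP⟩ := exists_nat_ge (q + r)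
  have hP1 : 1 ≤ P := by
    have : (1 : ℝ) ≤ P := by linarith
    exact_mod_cast this
  obtain ⟨Ω, _, p, g, hp0, hp1, hg, hτ, hmom⟩ := exists_moments (4 * P)
  set τ := ∑ ω, p ω * g ω with hτ'
  set A := 2 * (|C| + |D|) + 1 with hA
  have hA1 : 1 ≤ A := by rw [hA]; linarith [abs_nonneg C, abs_nonneg D]
  obtain ⟨N, hN⟩ := exists_nat_ge (30 * A ^ 2 / τ ^ 2 + 1)
  have hN0 : 0 ≤ 30 * A ^ 2 / τ ^ 2 := by positivity
  have hN1 : (1 : ℝ) ≤ N := by linarith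
  have hN1' : 1 ≤ N := by exact_mod_cast hN1
  have hNpos : (0 : ℝ) < N := by linarith
  set κ : ℝ := (N : ℝ) ^ (4 * P) with hκ
  have hκ1 : 1 ≤ κ / (N : ℝ) ^ 4 := by
    rw [one_le_div (by positivity)]
    exact pow_le_pow_right₀ hN1 (by omega)
  have hκ0 : 0 < κ := by positivity
  set M0 : ℝ := 2 * (|C| + |D|) * κ / (N : ℝ) ^ 4 with hM0
  have hM00 : 0 ≤ M0 := by positivity
  have hg' : ∀ a : ℕ, ∑ ω, p ω * (g ω / N) ^ a = (∑ ω, p ω * g ω ^ a) / (N : ℝ) ^ a := by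
    intro a
    rw [Finset.sum_div]
    exact Finset.sum_congr rfl fun ω _ => by rw [div_pow, mul_div_assoc]
  have hg1 : ∑ ω, p ω * (g ω / N) = τ / N := by simpa using hg' 1
  have hcast : ((N ^ (4 * P) : ℕ) : ℝ) = κ := by rw [hκ, Nat.cast_pow]
  obtain ⟨Φ, β, hβ, hΦ⟩ := step_of_repr (X := X) (k := N ^ (4 * P)) (M := M0 + 1) (by positivity)
    (repr_primal hM00 fun y => (sum_norm_le_of_cotype hX' (by linarith) (by linarith) hN1' y).trans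
      (mul_le_mul_of_nonneg_right (by rw [hM0]; gcongr; linarith [abs_nonneg C])
        (avg_nonneg fun _ => norm_nonneg _)))
    (repr_dual hM00 fun y => (sum_norm_le_of_cotype hX (by linarith) (by linarith) hN1' y).trans
      (mul_le_mul_of_nonneg_right (by rw [hM0]; gcongr; linarith [abs_nonneg D])
        (avg_nonneg fun _ => norm_nonneg _)))
    (g := fun ω => g ω / N) hp0 hp1
    (fun ω => by
      rw [abs_div, abs_of_pos hNpos, div_le_one hNpos]; exact (hg ω).trans hN1)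
    (fun a ha h3 => by
      rw [hg', hcast]
      rcases le_or_gt a (4 * P) with h4 | h4
      · rw [hmom a ha h3 h4]; simp only [zero_div, abs_zero]; positivity
      · rw [abs_div, abs_of_pos (pow_pos hNpos a)]
        have h5 : |∑ ω, p ω * g ω ^ a| ≤ 1 := abs_wsum_le hp0 hp1 fun ω => by
          rw [abs_pow]; exact pow_le_one₀ (abs_nonneg _) (hg ω)
        exact div_le_div₀ zero_le_one h5 hκ0 (pow_le_pow_right₀ hN1 h4.le))
    (by rw [hg1, hcast]; positivity)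
    (by
      rw [hg1, hcast]
      have h1 : M0 + 1 ≤ A * (κ / (N : ℝ) ^ 4) := by
        rw [hA, hM0, mul_div_assoc]; linarith
      have h2 : (1 : ℝ) ≤ (N : ℝ) ^ 4 := one_le_pow₀ hN1
      have h3 : κ / (N : ℝ) ^ 4 ≤ κ := div_le_self hκ0.le h2
      have h4 : 4 * κ * (M0 + 1) + 11 * (M0 + 1) ^ 2 ≤ 15 * A ^ 2 * (κ * (κ / (N : ℝ) ^ 4)) := by
        have h5 : (M0 + 1) ^ 2 ≤ A ^ 2 * (κ * (κ / (N : ℝ) ^ 4)) := by
          calc (M0 + 1) ^ 2 ≤ (A * (κ / (N : ℝ) ^ 4)) ^ 2 := by gcongr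
            _ = A ^ 2 * ((κ / (N : ℝ) ^ 4) * (κ / (N : ℝ) ^ 4)) := by ring
            _ ≤ _ := by gcongr
        have h6 : κ * (M0 + 1) ≤ A ^ 2 * (κ * (κ / (N : ℝ) ^ 4)) := by
          calc κ * (M0 + 1) ≤ κ * (A * (κ / (N : ℝ) ^ 4)) := by gcongr
            _ = A * (κ * (κ / (N : ℝ) ^ 4)) := by ring
            _ ≤ _ := by gcongr; nlinarith
        linarith
      refine h4.trans ?_
      have h7 : 30 * A ^ 2 ≤ τ ^ 2 * (N : ℝ) ^ 2 := by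
        have h8 : 30 * A ^ 2 / τ ^ 2 ≤ (N : ℝ) ^ 2 := by nlinarith
        rwa [div_le_iff₀' (by positivity)] at h8
      calc 15 * A ^ 2 * (κ * (κ / (N : ℝ) ^ 4)) = (30 * A ^ 2) * (κ ^ 2 / (2 * (N : ℝ) ^ 4)) := by
            field_simp; ring
        _ ≤ (τ ^ 2 * (N : ℝ) ^ 2) * (κ ^ 2 / (2 * (N : ℝ) ^ 4)) := by gcongr
        _ = _ := by field_simp)
  exact ⟨Φ, _, β, Nat.one_le_pow _ _ hN1', hβ, hΦ⟩

end Crest.Agent.R118
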